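import Vale.Agent.Lib.P064.Forest.Final

/-!
P064, general graphs: `tilde p_E(n,H) ≤ C log n · p_E(n,H)` for EVERY graph `H`
(hence `p_c ≤ C' p_E log² n`).  SHARED DEFINITIONS - DO NOT EDIT.

Paper proof (all modules refer to it).  `H` is closed at `q` (every subgraph `K` of `H` has
`N(K_n,K) q^{e(K)} ≥ 1`), `0 < q ≤ e^{-2}`.
1. Every set `S` of edges of `H` satisfies `n^{|V(S)|} q^{|S|} ≥ 1` (`Dens`).
2. With `b = ⌈log(1/q)⌉`, `D = ⌈b log n / log(1/q)⌉` this gives `b |S| ≤ D |V(S)|` (`Params`), so by
   Hall's theorem each edge can be given `b` tokens, each token placed on one of its two ends, with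
   at most `D` tokens on each vertex (`Hall`).  `O u v` (`u ⇒ v`) means that `u` holds a token of
   the edge `uv`.  Every vertex has at most `D ≤ 2.5 max(1, log n)` out-neighbours, and
   `n^b q^D ≥ e^{-b}`.
3. For an embedding `f : F → H` the pattern is `π u w :↔ F.Adj u w ∧ O (f u) (f w)`; there are at
   most `4^{e(F)}` patterns (`Patterns`).  Fix `π`.
4. `W` is exhausted by `∅ = X_0 ⊂ X_1 ⊂ ...`, each `X_j` closed under `π`-arcs and
   `Y = X_{j+1} \ X_j` strongly connected for `π` (`Sink`).  Given `f` on `X`, the number of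
   possible restrictions of `f` to `Y` is at most `n^{|Y|} (100 Λ q)^{m}`, `m = |newE F X Y|`
   (`Step`); multiply (`Induct`).
5. Proof of `Step`: take a maximal family of `t` extensions with pairwise disjoint images of `Y`.
   Together with the roots they form a subgraph with `≥ t!` automorphisms, so
   `t! ≤ n^r (n^{|Y|} q^m)^t` (`Sunflower`), so `t ≤ max(e² μ, r log n)`, `μ = n^{|Y|} q^m`.
   Every extension meets the family in some vertex `z = f y`; given `(y, z)` there are at most
   `D^{|Y|-1}` extensions because `Y` is strongly connected (`Explore`).  All `b m` tokens of the new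
   edges lie on the image of `Y`, so `b m ≤ D |Y|` and `μ ≥ e^{-|Y|}` (`MuLower`).  Finally
   `|Y| - 1 + r ≤ m` (`Edges`) and a numerical computation (`StepNum`).
-/

open Finset SimpleGraph
open scoped Classical

namespace Vale.Agent.Lib.P064.Orient

variable {V W : Type*} [Fintype V] [Fintype W]

/-- every subgraph of `H` has expected count at least one at density `q` -/
def Closed (n : ℕ) (H : SimpleGraph V) (q : ℝ) : Prop :=
  ∀ K : H.Subgraph,
    1 ≤ ((⊤ : SimpleGraph (Fin n)).copyCount K.coe : ℝ) * q ^ K.coe.edgeSet.ncard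

/-- the vertices covered by a set of edges -/
noncomputable def vs (S : Finset (Sym2 V)) : Finset V := univ.filter (fun v => ∃ e ∈ S, v ∈ e)

/-- what we use of the `b`-fold orientation with at most `D` tokens on each vertex:
`O u v` = `u` holds a token of the edge `uv` -/
structure IsOrient (H : SimpleGraph V) (b D : ℕ) (O : V → V → Prop) : Prop where
  out : ∀ u, (univ.filter (fun v => O u v)).card ≤ D
  load : ∀ (Z : Finset V) (S : Finset (Sym2 V)), S ⊆ H.edgeFinset →
    (∀ a c, s(a, c) ∈ S → a ∈ Z ∨ ¬ O a c) → b * S.card ≤ D * Z.card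

/-- the edges of `F` inside `X ∪ Y` with an end in `Y` -/
noncomputable def newE (F : SimpleGraph W) (X Y : Finset W) : Finset (Sym2 W) :=
  F.edgeFinset.filter (fun e => (∀ v ∈ e, v ∈ X ∪ Y) ∧ ∃ v ∈ e, v ∈ Y)

/-- the vertices of `X` with a neighbour in `Y` -/
noncomputable def roots (F : SimpleGraph W) (X Y : Finset W) : Finset W :=
  X.filter (fun x => ∃ y ∈ Y, F.Adj x y)

/-- the embeddings of `F` into `H` with pattern `π` -/
noncomputable def Emb (F : SimpleGraph W) (H : SimpleGraph V) (O : V → V → Prop)
    (π : W → W → Prop) : Finset (W → V) :=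
  univ.filter (fun f => Function.Injective f ∧ (∀ u w, F.Adj u w → H.Adj (f u) (f w)) ∧
    ∀ u w, F.Adj u w → (O (f u) (f w) ↔ π u w))

/-- `Y` is strongly connected for `π` -/
def SConn (π : W → W → Prop) (Y : Finset W) : Prop :=
  ∀ y ∈ Y, ∀ y' ∈ Y, Relation.ReflTransGen (fun u w => π u w ∧ u ∈ Y ∧ w ∈ Y) y y'

/-- restriction of a function to a finset -/
def res (Y : Finset W) (f : W → V) : Y → V := fun v => f v

end Vale.Agent.Lib.P064.Orient
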