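import Vale.Agent.Lib.P064.Orient.Defs

/-!
P064 Orient, module O2 (density).  FROZEN STATEMENT `dens_of_closed`.

ROUTE.  `K : H.Subgraph` with `verts = ↑(vs S)`, `Adj a c := s(a,c) ∈ S`.  Then
`K.coe.edgeSet.ncard = S.card` (bijection `Sym2.map Subtype.val`; only `S.card ≤ ncard` together with
`q ≤ 1` would NOT be enough since `q ≤ 1` is not assumed: prove equality), and
`copyCount ⊤ K.coe ≤ n ^ (vs S).card`: by `labelledCopyCount_eq` and `labelledCopyCount_top`
(`Vale/Agent/Lib/P064/Counting.lean`) `copyCount * aut = n.descFactorial (card verts) ≤ n ^ _`, and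
`aut ≥ 1`.  See `packing_factorial` in `Vale/Agent/Lib/P064/Packing.lean` for the same computation.
-/

open Finset SimpleGraph
open scoped Classical

namespace Vale.Agent.Lib.P064.Orient

variable {V : Type*} [Fintype V]

/-- the subgraph of `H` spanned by a set of edges -/
def edgeSub (H : SimpleGraph V) (S : Finset (Sym2 V)) (hS : S ⊆ H.edgeFinset) : H.Subgraph where
  verts := ↑(vs S)
  Adj a c := s(a, c) ∈ S
  adj_sub := by
    intro a c h
    have := hS h
    rwa [SimpleGraph.mem_edgeFinset, SimpleGraph.mem_edgeSet] at this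
  edge_vert := by
    intro a c h
    simp only [vs, Finset.coe_filter, Finset.mem_univ, true_and, Set.mem_setOf_eq]
    exact ⟨s(a, c), h, Sym2.mem_mk_left a c⟩
  symm := ⟨by
    intro a c h
    rwa [Sym2.eq_swap]⟩

lemma edgeSub_edgeSet (H : SimpleGraph V) (S : Finset (Sym2 V)) (hS : S ⊆ H.edgeFinset) :
    (edgeSub H S hS).edgeSet = ↑S := by
  ext e
  induction e using Sym2.ind with
  | _ a c =>
    rw [Subgraph.mem_edgeSet]
    rfl

theorem dens_of_closed (n : ℕ) (H : SimpleGraph V) (q : ℝ) (hq0 : 0 ≤ q) (hH : Closed n H q)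
    (S : Finset (Sym2 V)) (hS : S ⊆ H.edgeFinset) :
    1 ≤ (n : ℝ) ^ (vs S).card * q ^ S.card := by
  set K := edgeSub H S hS with hK
  have hE : K.coe.edgeSet.ncard = S.card := by
    have h1 : K.coe.edgeSet.ncard = K.edgeSet.ncard := by
      rw [← Subgraph.image_coe_edgeSet_coe, Set.ncard_image_of_injective]
      exact Sym2.map.injective Subtype.val_injective
    rw [h1, hK, edgeSub_edgeSet, Set.ncard_coe_finset]
  have hVc : Fintype.card K.verts = (vs S).card := by
    have : K.verts = ↑(vs S) := rfl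
    rw [← Nat.card_eq_fintype_card, this, Nat.card_coe_set_eq, Set.ncard_coe_finset]
  have hfin : Finite (K.coe ≃g K.coe) :=
    Finite.of_injective (fun e : K.coe ≃g K.coe => (e : K.verts → K.verts))
      DFunLike.coe_injective
  have haut : 1 ≤ Nat.card (K.coe ≃g K.coe) := by
    haveI : Nonempty (K.coe ≃g K.coe) := ⟨SimpleGraph.Iso.refl⟩
    exact Nat.card_pos
  have hl := labelledCopyCount_eq (⊤ : SimpleGraph (Fin n)) K.coe
  rw [labelledCopyCount_top, hVc] at hl
  have h1 := hH K
  rw [hE] at h1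
  have h2 : ((⊤ : SimpleGraph (Fin n)).copyCount K.coe : ℝ) ≤ (n : ℝ) ^ (vs S).card := by
    have : (⊤ : SimpleGraph (Fin n)).copyCount K.coe ≤ n ^ (vs S).card := by
      calc _ ≤ (⊤ : SimpleGraph (Fin n)).copyCount K.coe * Nat.card (K.coe ≃g K.coe) :=
            Nat.le_mul_of_pos_right _ haut
        _ = n.descFactorial (vs S).card := hl.symm
        _ ≤ _ := Nat.descFactorial_le_pow _ _
    exact_mod_cast this
  exact h1.trans (mul_le_mul_of_nonneg_right h2 (by positivity))

end Vale.Agent.Lib.P064.Orient
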