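import Vale.Agent.Lib.P064.Orient.Defs

/-!
P064 Orient, module O6 (edge counts).  FROZEN STATEMENTS `newE_roots`, `card_newE_ge`.

ROUTE.  `newE_roots`: an edge of `newE F X Y` has an end `y ∈ Y`; its other end is in `Y` or is a
vertex of `X` adjacent to `y`, i.e. a root.
`card_newE_ge`: the induced graph `F.induce ↑Y` is connected (a `π`-chain inside `Y` is a walk, by
`hπ`), so `Y.card ≤ (edges inside Y) + 1` by `SimpleGraph.Connected.card_vert_le_card_edgeSet_add_one`;
the edges inside `Y` inject into `newE F X Y`; for each root `x` choose `y_x ∈ Y` adjacent to `x`: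
the edges `s(x, y_x)` are distinct, lie in `newE F X Y` and are not inside `Y` (`hXY`).
-/

open Finset SimpleGraph
open scoped Classical

namespace Vale.Agent.Lib.P064.Orient

variable {W : Type*} [Fintype W]

theorem newE_roots (F : SimpleGraph W) (X Y : Finset W) :
    newE F (roots F X Y) Y = newE F X Y := by
  ext e
  induction e using Sym2.ind with
  | _ u w =>
    simp only [newE, roots, Finset.mem_filter, SimpleGraph.mem_edgeFinset,
      SimpleGraph.mem_edgeSet, Sym2.mem_iff, forall_eq_or_imp, forall_eq, exists_eq_or_imp,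
      exists_eq_left, Finset.mem_union]
    constructor
    · rintro ⟨h1, ⟨h2, h3⟩, h4⟩
      refine ⟨h1, ⟨?_, ?_⟩, h4⟩
      · rcases h2 with h | h
        · exact Or.inl h.1
        · exact Or.inr h
      · rcases h3 with h | h
        · exact Or.inl h.1
        · exact Or.inr h
    · rintro ⟨h1, ⟨h2, h3⟩, h4⟩
      refine ⟨h1, ⟨?_, ?_⟩, h4⟩
      · rcases h2 with h | h
        · rcases h4 with h' | h'
          · exact Or.inr h'
          · exact Or.inl ⟨h, w, h', h1⟩
        · exact Or.inr h
      · rcases h3 with h | h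
        · rcases h4 with h' | h'
          · exact Or.inl ⟨h, u, h', h1.symm⟩
          · exact Or.inr h'
        · exact Or.inr h

theorem card_newE_ge (F : SimpleGraph W) (π : W → W → Prop) (hπ : ∀ u w, π u w → F.Adj u w)
    (X Y : Finset W) (hXY : Disjoint X Y) (hY : Y.Nonempty) (hconn : SConn π Y) :
    (Y.card - 1) + (roots F X Y).card ≤ (newE F X Y).card := by
  have hmem : ∀ u w, s(u, w) ∈ newE F X Y ↔
      F.Adj u w ∧ ((u ∈ X ∨ u ∈ Y) ∧ (w ∈ X ∨ w ∈ Y)) ∧ (u ∈ Y ∨ w ∈ Y) := by
    intro u w
    simp only [newE, Finset.mem_filter, SimpleGraph.mem_edgeFinset, SimpleGraph.mem_edgeSet,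
      Sym2.mem_iff, forall_eq_or_imp, forall_eq, exists_eq_or_imp, exists_eq_left,
      Finset.mem_union]
  set G : SimpleGraph (Y : Set W) := F.induce (Y : Set W) with hG
  have hreach : ∀ a c, Relation.ReflTransGen (fun u w => π u w ∧ u ∈ Y ∧ w ∈ Y) a c →
      ∀ (ha : a ∈ Y) (hc : c ∈ Y), G.Reachable ⟨a, ha⟩ ⟨c, hc⟩ := by
    intro a c h
    induction h with
    | refl => intro ha hc; exact SimpleGraph.Reachable.refl _
    | tail _ hst ih =>
      intro ha hc
      have h1 := ih ha hst.2.1
      refine h1.trans (SimpleGraph.Adj.reachable ?_)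
      exact hπ _ _ hst.1
  have hGconn : G.Connected := by
    have : Nonempty (Y : Set W) := ⟨⟨hY.choose, hY.choose_spec⟩⟩
    refine ⟨fun a c => ?_⟩
    exact hreach a.1 c.1 (hconn a.1 a.2 c.1 c.2) a.2 c.2
  have h1 := hGconn.card_vert_le_card_edgeSet_add_one
  have hcardY : Nat.card (Y : Set W) = Y.card := by
    simp
  rw [hcardY] at h1
  -- the inner edges
  set Ein : Finset (Sym2 W) := (newE F X Y).filter (fun e => ∀ v ∈ e, v ∈ Y) with hEin
  have h2 : Nat.card G.edgeSet ≤ Ein.card := by
    rw [← Nat.card_eq_finsetCard Ein]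
    let φ : G.edgeSet → Ein := fun e => ⟨Sym2.map Subtype.val e.1, by
      obtain ⟨e, he⟩ := e
      induction e using Sym2.ind with
      | _ u w =>
        rw [SimpleGraph.mem_edgeSet] at he
        have hadj : F.Adj u.1 w.1 := he
        rw [hEin, Finset.mem_filter, Sym2.map_mk, hmem]
        refine ⟨⟨hadj, ⟨Or.inr u.2, Or.inr w.2⟩, Or.inl u.2⟩, ?_⟩
        intro v hv
        rw [Sym2.mem_iff] at hv
        rcases hv with rfl | rfl
        · exact u.2
        · exact w.2⟩
    have hφ : Function.Injective φ := by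
      intro e e' h
      have h' : Sym2.map Subtype.val e.1 = Sym2.map Subtype.val e'.1 := congrArg Subtype.val h
      exact Subtype.ext (Sym2.map.injective Subtype.val_injective h')
    exact Nat.card_le_card_of_injective φ hφ
  -- the root edges
  have hch : ∀ x : {x // x ∈ roots F X Y}, ∃ y, y ∈ Y ∧ F.Adj x.1 y := by
    intro x
    have := x.2
    simp only [roots, Finset.mem_filter] at this
    obtain ⟨_, y, hy, hxy⟩ := this
    exact ⟨y, hy, hxy⟩
  choose yy hyy hadjy using hch
  have hrootX : ∀ x : {x // x ∈ roots F X Y}, x.1 ∈ X := by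
    intro x
    have := x.2
    simp only [roots, Finset.mem_filter] at this
    exact this.1
  have hXnotY : ∀ x, x ∈ X → x ∉ Y := fun x hx hy => (Finset.disjoint_left.1 hXY) hx hy
  set Ert : Finset (Sym2 W) := (Finset.univ : Finset {x // x ∈ roots F X Y}).image
    (fun x => s(x.1, yy x)) with hErt
  have hErtcard : Ert.card = (roots F X Y).card := by
    rw [hErt, Finset.card_image_of_injective]
    · simp
    · intro x x' h
      simp only at h
      rw [Sym2.eq_iff] at h
      rcases h with ⟨h, _⟩ | ⟨h, _⟩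
      · exact Subtype.ext h
      · exfalso
        exact hXnotY _ (hrootX x) (h ▸ hyy x')
  have hErtsub : Ert ⊆ newE F X Y := by
    intro e he
    rw [hErt, Finset.mem_image] at he
    obtain ⟨x, _, rfl⟩ := he
    rw [hmem]
    exact ⟨hadjy x, ⟨Or.inl (hrootX x), Or.inr (hyy x)⟩, Or.inr (hyy x)⟩
  have hdisj : Disjoint Ein Ert := by
    rw [Finset.disjoint_left]
    intro e he he'
    rw [hErt, Finset.mem_image] at he'
    obtain ⟨x, _, rfl⟩ := he'
    rw [hEin, Finset.mem_filter] at he
    exact hXnotY _ (hrootX x) (he.2 x.1 (Sym2.mem_mk_left _ _))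
  have hunion : (Ein ∪ Ert).card ≤ (newE F X Y).card :=
    Finset.card_le_card (Finset.union_subset (Finset.filter_subset _ _) hErtsub)
  rw [Finset.card_union_of_disjoint hdisj, hErtcard] at hunion
  omega

end Vale.Agent.Lib.P064.Orient
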