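import Vale.Agent.Lib.P064.Orient.Defs

/-!
P064 Orient, module O5 (exploring along out-arcs).  FROZEN STATEMENT `explore`.

ROUTE (compare `card_hom_ext_le` in `Vale/Agent/Lib/P064/Rooted.lean`).  Prove by induction on
`m = (Y \ S).card`, for all `S ⊆ Y` with `y ∈ S` and all `ψ : W → V`:
`((𝒜.filter (fun f => ∀ s ∈ S, f s = ψ s)).image (res Y)).card ≤ D ^ m`.
`m = 0`: `S = Y`, all restrictions are equal.  Step: there is an arc `π u w` with `u ∈ S`,
`w ∈ Y \ S` (take `y' ∈ Y \ S` and the first arc of the chain `hreach y'` leaving `S`: induction on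
`Relation.ReflTransGen`); `f w` is one of the at most `D` out-neighbours of `ψ u`; split according
to `f w` and apply the induction hypothesis to `insert w S` and `Function.update ψ w v`.
-/

open Finset SimpleGraph
open scoped Classical

namespace Vale.Agent.Lib.P064.Orient

variable {V W : Type*} [Fintype V] [Fintype W]

theorem exists_leaving_arc (π : W → W → Prop) (Y S : Finset W) (y y' : W) (hyS : y ∈ S)
    (hy' : y' ∉ S)
    (h : Relation.ReflTransGen (fun u w => π u w ∧ u ∈ Y ∧ w ∈ Y) y y') :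
    ∃ u w, π u w ∧ u ∈ S ∧ u ∈ Y ∧ w ∈ Y ∧ w ∉ S := by
  induction h with
  | refl => exact absurd hyS hy'
  | tail hab hbc ih =>
    rename_i b c
    by_cases hb : b ∈ S
    · exact ⟨b, c, hbc.1, hb, hbc.2.1, hbc.2.2, hy'⟩
    · exact ih hb

theorem explore_aux (O : V → V → Prop) (D : ℕ) (hO : ∀ u, (univ.filter (fun v => O u v)).card ≤ D)
    (π : W → W → Prop) (Y : Finset W) (y : W) (hy : y ∈ Y)
    (hreach : ∀ y' ∈ Y, Relation.ReflTransGen (fun u w => π u w ∧ u ∈ Y ∧ w ∈ Y) y y')
    (𝒜 : Finset (W → V))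
    (h𝒜 : ∀ f ∈ 𝒜, ∀ u w, π u w → u ∈ Y → w ∈ Y → O (f u) (f w)) :
    ∀ (m : ℕ) (S : Finset W), S ⊆ Y → y ∈ S → (Y \ S).card = m → ∀ ψ : W → V,
      ((𝒜.filter (fun f => ∀ s ∈ S, f s = ψ s)).image (res Y)).card ≤ D ^ m := by
  intro m
  induction m with
  | zero =>
    intro S hSY hyS hm ψ
    have hYS : Y ⊆ S := by
      have := Finset.card_eq_zero.mp hm
      exact Finset.sdiff_eq_empty_iff_subset.mp this
    simp only [pow_zero]
    apply Finset.card_le_one.mpr
    intro a ha b hb
    simp only [Finset.mem_image, Finset.mem_filter] at ha hb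
    obtain ⟨f, ⟨_, hf⟩, rfl⟩ := ha
    obtain ⟨g, ⟨_, hg⟩, rfl⟩ := hb
    funext v
    simp only [res]
    rw [hf v (hYS v.2), hg v (hYS v.2)]
  | succ m ih =>
    intro S hSY hyS hm ψ
    have hne : (Y \ S).Nonempty := by
      rw [← Finset.card_pos]; omega
    obtain ⟨y', hy'⟩ := hne
    rw [Finset.mem_sdiff] at hy'
    obtain ⟨u, w, hπ, huS, huY, hwY, hwS⟩ :=
      exists_leaving_arc π Y S y y' hyS hy'.2 (hreach y' hy'.1)
    have hsub : (𝒜.filter (fun f => ∀ s ∈ S, f s = ψ s)).image (res Y) ⊆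
        (univ.filter (fun v => O (ψ u) v)).biUnion (fun v =>
          (𝒜.filter (fun f => ∀ s ∈ insert w S, f s = Function.update ψ w v s)).image (res Y)) := by
      intro ρ hρ
      simp only [Finset.mem_image, Finset.mem_filter] at hρ
      obtain ⟨f, ⟨hfA, hf⟩, rfl⟩ := hρ
      simp only [Finset.mem_biUnion, Finset.mem_filter, Finset.mem_univ, true_and,
        Finset.mem_image]
      refine ⟨f w, ?_, f, ⟨hfA, ?_⟩, rfl⟩
      · rw [← hf u huS]; exact h𝒜 f hfA u w hπ huY hwY
      · intro s hs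
        rw [Finset.mem_insert] at hs
        by_cases hsw : s = w
        · subst hsw; simp
        · rw [Function.update_of_ne hsw]
          exact hf s (hs.resolve_left hsw)
    calc _ ≤ _ := Finset.card_le_card hsub
      _ ≤ ∑ v ∈ univ.filter (fun v => O (ψ u) v), _ := Finset.card_biUnion_le
      _ ≤ ∑ v ∈ univ.filter (fun v => O (ψ u) v), D ^ m := by
          apply Finset.sum_le_sum
          intro v _
          apply ih (insert w S)
          · intro s hs
            rw [Finset.mem_insert] at hs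
            rcases hs with rfl | hs
            · exact hwY
            · exact hSY hs
          · exact Finset.mem_insert_of_mem hyS
          · have : Y \ insert w S = (Y \ S).erase w := by
              ext s; simp only [Finset.mem_sdiff, Finset.mem_insert, Finset.mem_erase]; tauto
            rw [this, Finset.card_erase_of_mem (Finset.mem_sdiff.mpr ⟨hwY, hwS⟩), hm]; rfl
      _ = (univ.filter (fun v => O (ψ u) v)).card * D ^ m := by
          rw [Finset.sum_const, smul_eq_mul]
      _ ≤ D * D ^ m := Nat.mul_le_mul_right _ (hO _)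
      _ = D ^ (m + 1) := by ring

theorem explore (O : V → V → Prop) (D : ℕ) (hO : ∀ u, (univ.filter (fun v => O u v)).card ≤ D)
    (π : W → W → Prop) (Y : Finset W) (y : W) (hy : y ∈ Y)
    (hreach : ∀ y' ∈ Y, Relation.ReflTransGen (fun u w => π u w ∧ u ∈ Y ∧ w ∈ Y) y y')
    (𝒜 : Finset (W → V))
    (h𝒜 : ∀ f ∈ 𝒜, ∀ u w, π u w → u ∈ Y → w ∈ Y → O (f u) (f w)) (z : V) :
    ((𝒜.filter (fun f => f y = z)).image (res Y)).card ≤ D ^ (Y.card - 1) := by
  have h := explore_aux O D hO π Y y hy hreach 𝒜 h𝒜 (Y.card - 1) {y}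
    (Finset.singleton_subset_iff.mpr hy) (Finset.mem_singleton_self y)
    (by rw [Finset.card_sdiff_of_subset (Finset.singleton_subset_iff.mpr hy)]; simp) (fun _ => z)
  simpa using h

end Vale.Agent.Lib.P064.Orient
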