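import Vale.Agent.Lib.P064.Orient.Defs

/-!
P064 Orient, module O1 (Hall).  FROZEN STATEMENT `exists_orient`.

ROUTE.  Hall's theorem `Finset.all_card_le_biUnion_card_iff_exists_injective` with index type
`ι = {e // e ∈ H.edgeFinset} × Fin b`, target `V × Fin D`,
`t (e, i) = (univ.filter (fun v => v ∈ e.1)) ×ˢ univ`.
Hall's condition for `s : Finset ι`: with `S = s.image (fun x => x.1.1)` we have
`s.card ≤ b * S.card` (s injects into `S × Fin b`) and `s.biUnion t = vs S ×ˢ univ`, of cardinality
`(vs S).card * D`.  Let `g` be the injective choice function, `(g x).1 ∈ x.1.1`.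
`O a c := ∃ (he : s(a,c) ∈ H.edgeFinset) (i : Fin b), (g (⟨s(a,c), he⟩, i)).1 = a`.
* `out u`: for an out-neighbour `v` choose `i_v`; `v ↦ (g (⟨s(u,v),_⟩, i_v)).2 : Fin D` is injective
  (the first components are all `u`, `g` is injective, and `s(u,v) = s(u,v')` gives `v = v'`).
* `load`: `(e,i) ↦ g (e,i)` maps `S × Fin b` injectively into `Z ×ˢ univ`: if `(g (e,i)).1 = a`,
  write `e = s(a,c)` (`Sym2.mem_iff_exists` / `Sym2.Mem.other`), then `O a c`, so `a ∈ Z`.
-/

open Finset SimpleGraph
open scoped Classical

namespace Vale.Agent.Lib.P064.Orient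

variable {V : Type*} [Fintype V]

theorem exists_orient (H : SimpleGraph V) (b D : ℕ)
    (hHall : ∀ S : Finset (Sym2 V), S ⊆ H.edgeFinset → b * S.card ≤ D * (vs S).card) :
    ∃ O : V → V → Prop, IsOrient H b D O := by
  let ι := {e // e ∈ H.edgeFinset} × Fin b
  let t : ι → Finset (V × Fin D) := fun x => (univ.filter (fun v => v ∈ x.1.1)) ×ˢ univ
  have hcond : ∀ s : Finset ι, s.card ≤ (s.biUnion t).card := by
    intro s
    set S : Finset (Sym2 V) := s.image (fun x => x.1.1) with hS
    have hSsub : S ⊆ H.edgeFinset := by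
      intro e he
      rw [hS, Finset.mem_image] at he
      obtain ⟨x, _, rfl⟩ := he
      exact x.1.2
    have h1 : s.card ≤ b * S.card := by
      have hinj : Set.InjOn (fun x : ι => (x.1.1, x.2)) (s : Set ι) := by
        intro x _ y _ hxy
        simp only [Prod.mk.injEq] at hxy
        exact Prod.ext (Subtype.ext hxy.1) hxy.2
      have hmaps : ∀ x ∈ s, (fun x : ι => (x.1.1, x.2)) x ∈ S ×ˢ (univ : Finset (Fin b)) := by
        intro x hx
        simp only [Finset.mem_product, Finset.mem_univ, and_true]
        exact Finset.mem_image_of_mem _ hx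
      have := Finset.card_le_card_of_injOn _ hmaps hinj
      rw [Finset.card_product, Finset.card_univ, Fintype.card_fin, mul_comm] at this
      exact this
    have h2 : (vs S) ×ˢ (univ : Finset (Fin D)) ⊆ s.biUnion t := by
      intro p hp
      simp only [Finset.mem_product, Finset.mem_univ, and_true, vs, Finset.mem_filter,
        true_and] at hp
      obtain ⟨e, he, hve⟩ := hp
      rw [hS, Finset.mem_image] at he
      obtain ⟨x, hx, rfl⟩ := he
      rw [Finset.mem_biUnion]
      refine ⟨x, hx, ?_⟩
      simp only [t, Finset.mem_product, Finset.mem_filter, Finset.mem_univ, true_and, and_true]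
      exact hve
    have h3 := Finset.card_le_card h2
    rw [Finset.card_product, Finset.card_univ, Fintype.card_fin] at h3
    have h4 := hHall S hSsub
    calc s.card ≤ b * S.card := h1
      _ ≤ D * (vs S).card := h4
      _ = (vs S).card * D := mul_comm _ _
      _ ≤ _ := h3
  obtain ⟨g, hginj, hg⟩ := (Finset.all_card_le_biUnion_card_iff_exists_injective t).1 hcond
  have hg1 : ∀ x : ι, (g x).1 ∈ x.1.1 := by
    intro x
    have := hg x
    simp only [t, Finset.mem_product, Finset.mem_filter, Finset.mem_univ, true_and,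
      and_true] at this
    exact this
  let O : V → V → Prop := fun a c =>
    ∃ (he : s(a, c) ∈ H.edgeFinset) (i : Fin b), (g (⟨s(a, c), he⟩, i)).1 = a
  refine ⟨O, ?_, ?_⟩
  · intro u
    -- choose witnesses
    have hch : ∀ v : {v // O u v}, ∃ (he : s(u, v.1) ∈ H.edgeFinset) (i : Fin b),
        (g (⟨s(u, v.1), he⟩, i)).1 = u := fun v => v.2
    choose he i hi using hch
    let φ : {v // O u v} → Fin D := fun v => (g (⟨s(u, v.1), he v⟩, i v)).2
    have hφ : Function.Injective φ := by
      intro v v' hvv
      have h1 : g (⟨s(u, v.1), he v⟩, i v) = g (⟨s(u, v'.1), he v'⟩, i v') :=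
        Prod.ext ((hi v).trans (hi v').symm) hvv
      have h2 := hginj h1
      have h3 : s(u, v.1) = s(u, v'.1) := congrArg (fun x : ι => x.1.1) h2
      exact Subtype.ext (Sym2.congr_right.1 h3)
    have := Fintype.card_le_of_injective φ hφ
    rw [Fintype.card_fin, Fintype.card_subtype] at this
    convert this
  · intro Z S hS hZ
    have key : ∀ (e' : Sym2 V) (he' : e' ∈ H.edgeFinset) (i : Fin b) (a c : V), e' = s(a, c) →
        (g (⟨e', he'⟩, i)).1 = a → O a c := by
      intro e' he' i a c h
      subst h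
      intro h2
      exact ⟨he', i, h2⟩
    let ψ : {e // e ∈ S} × Fin b → V × Fin D := fun p => g (⟨p.1.1, hS p.1.2⟩, p.2)
    have hinj : Set.InjOn ψ ((univ : Finset ({e // e ∈ S} × Fin b)) : Set _) := by
      intro x _ y _ hxy
      have h2 := hginj hxy
      have h3 : x.1.1 = y.1.1 := congrArg (fun z : ι => z.1.1) h2
      have h4 : x.2 = y.2 := congrArg (fun z : ι => z.2) h2
      exact Prod.ext (Subtype.ext h3) h4
    have hmaps : ∀ x ∈ (univ : Finset ({e // e ∈ S} × Fin b)),
        ψ x ∈ Z ×ˢ (univ : Finset (Fin D)) := by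
      intro x _
      simp only [Finset.mem_product, Finset.mem_univ, and_true]
      have hmem : (ψ x).1 ∈ x.1.1 := hg1 (⟨x.1.1, hS x.1.2⟩, x.2)
      obtain ⟨c, hc⟩ := Sym2.mem_iff_exists.1 hmem
      have hO : O (ψ x).1 c := key x.1.1 (hS x.1.2) x.2 (ψ x).1 c hc rfl
      have hSmem : s((ψ x).1, c) ∈ S := by rw [← hc]; exact x.1.2
      rcases hZ _ _ hSmem with h | h
      · exact h
      · exact absurd hO h
    have := Finset.card_le_card_of_injOn ψ hmaps hinj
    rw [Finset.card_product, Finset.card_univ, Finset.card_univ, Fintype.card_prod,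
      Fintype.card_fin, Fintype.card_fin, Fintype.card_coe] at this
    calc b * S.card = S.card * b := mul_comm _ _
      _ ≤ Z.card * D := this
      _ = D * Z.card := mul_comm _ _

end Vale.Agent.Lib.P064.Orient
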