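import Mathlib

/-!
P064 Orient, module O3 (parameters; pure real analysis).  FROZEN STATEMENT `exists_params`.

ROUTE.  `ℓ = - log q ≥ 2`, `b = ⌈ℓ⌉₊`, `D = ⌈b * log n / ℓ⌉₊`.
* `exp (-b) ≤ n^b q^D`: take logs: `b log n - D ℓ ≥ b log n - (b log n / ℓ + 1) ℓ = - ℓ ≥ - b`.
* `D ≤ b log n / ℓ + 1 ≤ (ℓ + 1) log n / ℓ + 1 ≤ (3/2) log n + 1 ≤ (5/2) max 1 (log n)`.
* if `1 ≤ n^v q^e` then `e ℓ ≤ v log n`, so `b e ≤ v (b log n / ℓ) ≤ v D`.
-/

namespace Vale.Agent.Lib.P064.Orient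

theorem exists_params (n : ℕ) (hn : 1 ≤ n) (q : ℝ) (hq0 : 0 < q) (hq2 : q ≤ Real.exp (-2)) :
    ∃ b D : ℕ, 1 ≤ b ∧ Real.exp (-(b : ℝ)) ≤ (n : ℝ) ^ b * q ^ D ∧
      (D : ℝ) ≤ 5 / 2 * max 1 (Real.log n) ∧
      ∀ v e : ℕ, 1 ≤ (n : ℝ) ^ v * q ^ e → b * e ≤ D * v := by
  set ℓ : ℝ := - Real.log q with hℓ
  have hℓ2 : 2 ≤ ℓ := by
    have : Real.log q ≤ -2 := by
      have := Real.log_le_log hq0 hq2
      rwa [Real.log_exp] at this
    rw [hℓ]; linarith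
  have hℓpos : 0 < ℓ := by linarith
  have hnR : (1 : ℝ) ≤ n := by exact_mod_cast hn
  have hnpos : (0 : ℝ) < n := by linarith
  set lam : ℝ := Real.log n with hlam
  have hlam0 : 0 ≤ lam := Real.log_nonneg hnR
  set b : ℕ := ⌈ℓ⌉₊ with hb
  set D : ℕ := ⌈(b : ℝ) * lam / ℓ⌉₊ with hD
  have hbℓ : ℓ ≤ b := Nat.le_ceil ℓ
  have hbℓ' : (b : ℝ) < ℓ + 1 := Nat.ceil_lt_add_one hℓpos.le
  have hx0 : 0 ≤ (b : ℝ) * lam / ℓ := by positivity
  have hDge : (b : ℝ) * lam / ℓ ≤ D := Nat.le_ceil _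
  have hDlt : (D : ℝ) < (b : ℝ) * lam / ℓ + 1 := Nat.ceil_lt_add_one hx0
  refine ⟨b, D, ?_, ?_, ?_, ?_⟩
  · have : (1 : ℝ) ≤ b := by linarith
    exact_mod_cast this
  · have hpos : 0 < (n : ℝ) ^ b * q ^ D := by positivity
    rw [← Real.log_le_log_iff (Real.exp_pos _) hpos, Real.log_exp, Real.log_mul (by positivity)
      (by positivity), Real.log_pow, Real.log_pow]
    have h1 : (D : ℝ) * ℓ ≤ (b : ℝ) * lam + ℓ := by
      have : (D : ℝ) * ℓ ≤ ((b : ℝ) * lam / ℓ + 1) * ℓ :=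
        mul_le_mul_of_nonneg_right hDlt.le hℓpos.le
      have e : ((b : ℝ) * lam / ℓ + 1) * ℓ = (b : ℝ) * lam + ℓ := by
        field_simp
      linarith
    have h2 : Real.log q = -ℓ := by rw [hℓ]; ring
    rw [h2]
    nlinarith
  · have h1 : (b : ℝ) * lam / ℓ ≤ 3 / 2 * lam := by
      rw [div_le_iff₀ hℓpos]
      nlinarith
    have h2 : (1 : ℝ) ≤ max 1 lam := le_max_left _ _
    have h3 : lam ≤ max 1 lam := le_max_right _ _
    linarith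
  · intro v e h
    have hpos : 0 < (n : ℝ) ^ v * q ^ e := by positivity
    have h1 : 0 ≤ Real.log ((n : ℝ) ^ v * q ^ e) := Real.log_nonneg h
    rw [Real.log_mul (by positivity) (by positivity), Real.log_pow, Real.log_pow] at h1
    have h2 : Real.log q = -ℓ := by rw [hℓ]; ring
    rw [h2] at h1
    have h3 : (e : ℝ) * ℓ ≤ v * lam := by linarith
    have h4 : (b : ℝ) * e ≤ D * v := by
      have h5 : (e : ℝ) ≤ v * lam / ℓ := by
        rw [le_div_iff₀ hℓpos]; exact h3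
      calc (b : ℝ) * e ≤ b * (v * lam / ℓ) := mul_le_mul_of_nonneg_left h5 (Nat.cast_nonneg _)
        _ = ((b : ℝ) * lam / ℓ) * v := by ring
        _ ≤ D * v := mul_le_mul_of_nonneg_right hDge (Nat.cast_nonneg _)
    exact_mod_cast h4

end Vale.Agent.Lib.P064.Orient
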