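import Vale.Agent.Lib.P064.Orient.Patterns
import Vale.Agent.Lib.P064.Orient.Hall
import Vale.Agent.Lib.P064.Orient.Dens
import Vale.Agent.Lib.P064.Orient.Params

/-!
P064 Orient, final assembly: for every graph `H`,
`tilde p_E(n,H) ≤ 8530 log n · p_E(n,H)` and `p_c(n,H) ≤ 1194200 p_E(n,H) log² n`.
-/

open Finset SimpleGraph
open scoped Classical

namespace Vale.Agent.Lib.P064.Orient

open Vale.Agent.Lib.P064 Vale.Agent.Lib.P064.Forest

variable {V W : Type*} [Fintype V] [Fintype W]

/-- `max 1 (log n)` -/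
noncomputable def Lam (n : ℕ) : ℝ := max 1 (Real.log n)

lemma one_le_Lam (n : ℕ) : 1 ≤ Lam n := le_max_left _ _

lemma card_copy_le_pow (n : ℕ) (H : SimpleGraph V) (hV : Fintype.card V ≤ n)
    (F : SimpleGraph W) : (Nat.card (Copy F H) : ℝ) ≤ (n : ℝ) ^ Fintype.card W := by
  rw [← labelledCopyCount_eq_natCard]
  have h1 := labelledCopyCount_le_descFactorial H F
  have h2 : (Fintype.card V).descFactorial (Fintype.card W) ≤ n ^ Fintype.card W :=
    (Nat.descFactorial_le_pow _ _).trans (Nat.pow_le_pow_left hV _)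
  exact_mod_cast h1.trans h2

lemma exp_neg_two_bound : (1 : ℝ) ≤ 400 * Real.exp (-2) := by
  have h := Real.exp_one_lt_d9
  have h0 := Real.exp_pos 1
  have h2 : Real.exp 2 = Real.exp 1 * Real.exp 1 := by
    rw [← Real.exp_add]; norm_num
  have h3 : Real.exp 2 ≤ 400 := by
    rw [h2]; nlinarith
  rw [Real.exp_neg, ← div_eq_mul_inv, le_div_iff₀ (Real.exp_pos 2)]
  linarith

/-- the counting statement for labelled copies -/
theorem card_copy_le (n : ℕ) (H : SimpleGraph V) (hV : Fintype.card V ≤ n) (q : ℝ)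
    (hq0 : 0 ≤ q) (hq1 : q ≤ 1) (hH : Closed n H q) (F : SimpleGraph W) :
    (Nat.card (Copy F H) : ℝ)
      ≤ (n : ℝ) ^ Fintype.card W * (400 * Lam n * q) ^ F.edgeSet.ncard := by
  have hL := one_le_Lam n
  have htriv := card_copy_le_pow n H hV F
  by_cases hm : F.edgeSet.ncard = 0
  · rw [hm, pow_zero, mul_one]; exact htriv
  by_cases hne : Nonempty (Copy F H)
  swap
  · rw [not_nonempty_iff] at hne
    rw [Nat.card_of_isEmpty]
    simp only [Nat.cast_zero]
    positivity
  obtain ⟨c⟩ := hne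
  have hEne : F.edgeSet.Nonempty := by
    by_contra h
    rw [Set.not_nonempty_iff_eq_empty] at h
    rw [h, Set.ncard_empty] at hm
    exact hm rfl
  obtain ⟨e, he⟩ := hEne
  induction e using Sym2.ind with
  | _ u w =>
  rw [mem_edgeSet] at he
  have hadj : H.Adj (c u) (c w) := c.toHom.map_adj he
  have hn : 1 ≤ n := by
    have : 0 < Fintype.card V := Fintype.card_pos_iff.2 ⟨c u⟩
    omega
  have hqpos : 0 < q := by
    rcases eq_or_lt_of_le hq0 with h | h
    · exfalso
      have hS : ({s(c u, c w)} : Finset (Sym2 V)) ⊆ H.edgeFinset := by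
        intro x hx
        rw [Finset.mem_singleton] at hx
        subst hx
        rw [mem_edgeFinset, mem_edgeSet]
        exact hadj
      have := dens_of_closed n H q hq0 hH _ hS
      rw [Finset.card_singleton, ← h] at this
      norm_num at this
    · exact h
  rcases le_total q (Real.exp (-2)) with hq2 | hq2
  · obtain ⟨b, D, hb, hpar, hD, hbD⟩ := exists_params n hn q hqpos hq2
    obtain ⟨O, hO⟩ := exists_orient H b D
      (fun S hS => hbD _ _ (dens_of_closed n H q hq0 hH S hS))
    exact card_copy_le_of_orient n hn H hV q hqpos hq1 hH b D hb hpar (Lam n) hL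
      (le_max_right _ _) hD O hO F
  · have h1 : (1 : ℝ) ≤ 400 * Lam n * q := by
      have h2 := exp_neg_two_bound
      have h3 : 400 * Real.exp (-2) ≤ 400 * Lam n * q := by
        have : Real.exp (-2) ≤ Lam n * q := by
          calc Real.exp (-2) ≤ q := hq2
            _ = 1 * q := (one_mul q).symm
            _ ≤ Lam n * q := mul_le_mul_of_nonneg_right hL hq0
        nlinarith
      linarith
    calc (Nat.card (Copy F H) : ℝ) ≤ (n : ℝ) ^ Fintype.card W := htriv
      _ = (n : ℝ) ^ Fintype.card W * 1 := (mul_one _).symm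
      _ ≤ _ := mul_le_mul_of_nonneg_left (one_le_pow₀ h1) (by positivity)

lemma card_copy_le_natCard (n : ℕ) (H : SimpleGraph V) (hV : Fintype.card V ≤ n) (q : ℝ)
    (hq0 : 0 ≤ q) (hq1 : q ≤ 1) (hH : Closed n H q) (F : SimpleGraph W) :
    (Nat.card (Copy F H) : ℝ)
      ≤ (n : ℝ) ^ Nat.card W * (400 * Lam n * q) ^ F.edgeSet.ncard := by
  rw [Nat.card_eq_fintype_card (α := W)]
  exact card_copy_le n H hV q hq0 hq1 hH F

/-- the counting statement: if all subgraphs of `H` have expectation at least one at density `q`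
then `N(H,F) ≤ N(K_n,F) min(1, 400 e² max(1, log n) q)^{e(F)}` for every graph `F` -/
theorem log_closed (n : ℕ) (H : SimpleGraph V) (hV : Fintype.card V ≤ n) (q : ℝ)
    (hq0 : 0 ≤ q) (hq1 : q ≤ 1) (hH : Closed n H q) (F : SimpleGraph W) :
    (H.copyCount F : ℝ) ≤ ((⊤ : SimpleGraph (Fin n)).copyCount F : ℝ) *
      (min 1 (400 * Real.exp 2 * Lam n * q)) ^ F.edgeSet.ncard := by
  have hL := one_le_Lam n
  refine copyCount_le_of_labelled n H hV F _ ?_
  have h := labelled_le_of_conn n H hV (400 * Lam n * q) (by positivity) F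
    (fun c _ => by
      have := card_copy_le_natCard n H hV q hq0 hq1 hH c.toSimpleGraph
      rw [natCard_comp] at this
      exact this)
  have e : 400 * Lam n * q * Real.exp 2 = 400 * Real.exp 2 * Lam n * q := by ring
  rw [e] at h
  exact h

lemma exp_two_le : Real.exp 2 ≤ 7.39 := by
  have h := Real.exp_one_lt_d9
  have h0 := Real.exp_pos 1
  have h2 : Real.exp 2 = Real.exp 1 * Real.exp 1 := by
    rw [← Real.exp_add]; norm_num
  rw [h2]; nlinarith

lemma Lam_le (n : ℕ) (hn : 2 ≤ n) : Lam n ≤ 1.4428 * Real.log n := by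
  have h2 : (0.6931471803 : ℝ) < Real.log 2 := Real.log_two_gt_d9
  have hlog : Real.log 2 ≤ Real.log n :=
    Real.log_le_log (by norm_num) (by exact_mod_cast hn)
  unfold Lam
  refine max_le ?_ ?_
  · nlinarith
  · nlinarith

theorem pEtilde_le_Lam (n : ℕ) (H : SimpleGraph V) (hV : Fintype.card V ≤ n) :
    pEtilde n H ≤ 5912 * Lam n * pE n H := by
  have hL := one_le_Lam n
  have h1 := pEtilde_le_of_closed n H hV (400 * Real.exp 2 * Lam n) (by positivity)
    (fun q hq0 hq1 hH K => log_closed n H hV q hq0 hq1 hH K.coe)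
  have h2 := exp_two_le
  have h3 := pE_nonneg n H
  have h4 : 2 * (400 * Real.exp 2 * Lam n) ≤ 5912 * Lam n := by nlinarith
  calc pEtilde n H ≤ 2 * (400 * Real.exp 2 * Lam n) * pE n H := h1
    _ ≤ 5912 * Lam n * pE n H := mul_le_mul_of_nonneg_right h4 h3

theorem pEtilde_le_log (n : ℕ) (hn : 2 ≤ n) (H : SimpleGraph V) (hV : Fintype.card V ≤ n) :
    pEtilde n H ≤ 8530 * Real.log n * pE n H := by
  have h1 := pEtilde_le_Lam n H hV
  have h2 := Lam_le n hn
  have h3 := pE_nonneg n H
  have hlog : 0 ≤ Real.log n := Real.log_natCast_nonneg n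
  have h4 : 5912 * Lam n ≤ 8530 * Real.log n := by nlinarith
  exact h1.trans (mul_le_mul_of_nonneg_right h4 h3)

theorem pc_le_log_sq (n : ℕ) (hn : 2 ≤ n) (H : SimpleGraph V) (hV : Fintype.card V ≤ n)
    (hE : ∃ a b, H.Adj a b) :
    pc n H ≤ 1194200 * pE n H * Real.log n ^ 2 := by
  have h1 := PP.pc_le_tilde n hn H hV hE
  have h2 := pEtilde_le_log n hn H hV
  have hlog : 0 ≤ Real.log n := Real.log_natCast_nonneg n
  calc pc n H ≤ 140 * Real.log n * pEtilde n H := h1
    _ ≤ 140 * Real.log n * (8530 * Real.log n * pE n H) :=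
        mul_le_mul_of_nonneg_left h2 (by positivity)
    _ = 1194200 * pE n H * Real.log n ^ 2 := by ring

end Vale.Agent.Lib.P064.Orient
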