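import Vale.Agent.Lib.P064.Orient.Defs

/-!
P064 Orient, module O10 (a sink strongly connected component outside `X`).
FROZEN STATEMENT `exists_sink`.

ROUTE.  `Reach y = univ.filter (fun w => Relation.ReflTransGen π y w)`.  Choose `y0 ∉ X` minimising
`(Reach y \ X).card` (`Finset.exists_min_image` on `Xᶜ`), `Y = Reach y0 \ X`.
* `y0 ∈ Y`; `X ∪ Y = X ∪ Reach y0` is closed under arcs.
* for `y ∈ Y`: `Reach y ⊆ Reach y0`, so `Reach y \ X ⊆ Y`, and by minimality they have the same
  cardinality, so `Reach y \ X = Y`: every `y' ∈ Y` is reachable from `y`.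
* a chain from `y` to `y' ∉ X` never meets `X` (`X` is closed under arcs) and stays in `Reach y0`;
  so it is a chain for the relation restricted to `Y` (induction on `Relation.ReflTransGen`, e.g.
  `Relation.ReflTransGen.head_induction_on`).
-/

open Finset
open scoped Classical

namespace Vale.Agent.Lib.P064.Orient

variable {W : Type*} [Fintype W]

theorem exists_sink (π : W → W → Prop) (X : Finset W) (hX : ∀ x ∈ X, ∀ w, π x w → w ∈ X)
    (hne : X ≠ univ) :
    ∃ Y : Finset W, Y.Nonempty ∧ Disjoint X Y ∧ (∀ x ∈ X ∪ Y, ∀ w, π x w → w ∈ X ∪ Y) ∧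
      SConn π Y := by
  set Reach : W → Finset W := fun y => univ.filter (fun w => Relation.ReflTransGen π y w) with hR
  have hmemR : ∀ y w, w ∈ Reach y ↔ Relation.ReflTransGen π y w := by
    intro y w
    simp [hR]
  have hXc : (Xᶜ).Nonempty := by
    rw [Finset.nonempty_iff_ne_empty]
    intro h
    apply hne
    rw [← compl_compl X, h, compl_empty]
  obtain ⟨y0, hy0, hmin⟩ := Finset.exists_min_image (Xᶜ) (fun y => (Reach y \ X).card) hXc
  have hy0X : y0 ∉ X := by simpa using hy0
  set Y := Reach y0 \ X with hY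
  have hmemY : ∀ w, w ∈ Y ↔ Relation.ReflTransGen π y0 w ∧ w ∉ X := by
    intro w
    rw [hY, Finset.mem_sdiff, hmemR]
  -- every element of Y reaches every element of Y
  have hreach : ∀ y ∈ Y, ∀ y' ∈ Y, Relation.ReflTransGen π y y' := by
    intro y hy y' hy'
    have hy1 := (hmemY y).1 hy
    have hsub : Reach y \ X ⊆ Y := by
      intro w hw
      rw [Finset.mem_sdiff, hmemR] at hw
      exact (hmemY w).2 ⟨hy1.1.trans hw.1, hw.2⟩
    have hle : Y.card ≤ (Reach y \ X).card := hmin y (by simpa using hy1.2)
    have heq : Reach y \ X = Y := Finset.eq_of_subset_of_card_le hsub hle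
    have : y' ∈ Reach y \ X := by rw [heq]; exact hy'
    rw [Finset.mem_sdiff, hmemR] at this
    exact this.1
  -- chains ending outside X stay outside X
  have hstay : ∀ y y', Relation.ReflTransGen π y y' → y ∈ Y → y' ∈ Y →
      Relation.ReflTransGen (fun u w => π u w ∧ u ∈ Y ∧ w ∈ Y) y y' := by
    intro y y' h
    induction h using Relation.ReflTransGen.head_induction_on with
    | refl => intro _ _; exact Relation.ReflTransGen.refl
    | head hab hbc ih =>
      rename_i a c
      intro ha hy'
      have hcY : c ∈ Y := by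
        rw [hmemY]
        refine ⟨((hmemY a).1 ha).1.tail hab, ?_⟩
        intro hcX
        -- then y' in X
        have : ∀ w, Relation.ReflTransGen π c w → w ∈ X := by
          intro w hw
          induction hw with
          | refl => exact hcX
          | tail _ hst ih2 => exact hX _ ih2 _ hst
        exact ((hmemY y').1 hy').2 (this y' hbc)
      exact Relation.ReflTransGen.head ⟨hab, ha, hcY⟩ (ih hcY hy')
  refine ⟨Y, ⟨y0, (hmemY y0).2 ⟨Relation.ReflTransGen.refl, hy0X⟩⟩, ?_, ?_, ?_⟩
  · rw [hY]
    exact Finset.disjoint_sdiff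
  · intro x hx w hxw
    rw [Finset.mem_union] at hx ⊢
    rcases hx with hx | hx
    · exact Or.inl (hX x hx w hxw)
    · by_cases hw : w ∈ X
      · exact Or.inl hw
      · exact Or.inr ((hmemY w).2 ⟨((hmemY x).1 hx).1.tail hxw, hw⟩)
  · intro y hy y' hy'
    exact hstay y y' (hreach y hy y' hy') hy hy'

end Vale.Agent.Lib.P064.Orient
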