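import Vale.Agent.Lib.P064.Orient.Step
import Vale.Agent.Lib.P064.Orient.Sink

/-!
P064 Orient, module O11 (induction over the strongly connected components).
FROZEN STATEMENT `count_pattern`.

ROUTE.  `outE F X = F.edgeFinset.filter (fun e => ¬ ∀ v ∈ e, v ∈ X)`.  Claim, by strong induction on
`(Xᶜ).card`: for every `X` closed under `π`-arcs and every `f0`,
`((Emb F H O π).filter (fun f => ∀ x ∈ X, f x = f0 x)).card ≤ n^(Xᶜ).card * B^(outE F X).card`,
`B = 100 Λ q`.  `X = univ`: at most one function.  Otherwise take `Y` from `exists_sink`;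
`Finset.card_le_mul_card_image` for the map `res Y`: the image has at most `n^|Y| B^|newE F X Y|`
elements (`step`), and a fibre `{f ∈ 𝓑 | res Y f = ρ}` is contained in
`(Emb ..).filter (fun f => ∀ x ∈ X ∪ Y, f x = f1 x)` for any `f1` in it (induction hypothesis for
`X ∪ Y`).  `(Xᶜ).card = Y.card + ((X ∪ Y)ᶜ).card`, and `outE F X` is the disjoint union of
`outE F (X ∪ Y)` and `newE F X Y`.  Finally apply the claim to `X = ∅`.
-/

open Finset SimpleGraph
open scoped Classical

namespace Vale.Agent.Lib.P064.Orient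

variable {V W : Type*} [Fintype V] [Fintype W]

/-- the edges of `F` not inside `X` -/
noncomputable def outE (F : SimpleGraph W) (X : Finset W) : Finset (Sym2 W) :=
  F.edgeFinset.filter (fun e => ¬ ∀ v ∈ e, v ∈ X)

theorem outE_card_split (F : SimpleGraph W) (X Y : Finset W) (hXY : Disjoint X Y) :
    (outE F X).card = (newE F X Y).card + (outE F (X ∪ Y)).card := by
  have hdisj : Disjoint (newE F X Y) (outE F (X ∪ Y)) := by
    rw [Finset.disjoint_left]
    intro e he he'
    simp only [newE, outE, Finset.mem_filter] at he he'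
    exact he'.2 he.2.1
  rw [← Finset.card_union_of_disjoint hdisj]
  congr 1
  ext e
  simp only [newE, outE, Finset.mem_filter, Finset.mem_union]
  constructor
  · rintro ⟨he, hX⟩
    by_cases h : ∀ v ∈ e, v ∈ X ∨ v ∈ Y
    · left
      refine ⟨he, h, ?_⟩
      by_contra hcon
      push Not at hcon
      apply hX
      intro v hv
      exact (h v hv).resolve_right (hcon v hv)
    · right
      exact ⟨he, h⟩
  · rintro (⟨he, h1, v, hv, hvY⟩ | ⟨he, h⟩)
    · refine ⟨he, fun hall => ?_⟩
      exact (Finset.disjoint_left.mp hXY (hall v hv)) hvY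
    · refine ⟨he, fun hall => h (fun v hv => Or.inl (hall v hv))⟩

theorem compl_card_split (X Y : Finset W) (hXY : Disjoint X Y) :
    (Xᶜ).card = Y.card + ((X ∪ Y)ᶜ).card := by
  have hdisj : Disjoint Y ((X ∪ Y)ᶜ) := by
    rw [Finset.disjoint_left]
    intro v hv hv'
    simp only [Finset.mem_compl, Finset.mem_union] at hv'
    exact hv' (Or.inr hv)
  rw [← Finset.card_union_of_disjoint hdisj]
  congr 1
  ext v
  simp only [Finset.mem_compl, Finset.mem_union]
  constructor
  · intro h
    by_cases hv : v ∈ Y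
    · exact Or.inl hv
    · right; tauto
  · rintro (h | h)
    · exact fun hx => (Finset.disjoint_left.mp hXY hx) h
    · tauto

theorem count_pattern_aux (n : ℕ) (hn : 1 ≤ n) (H : SimpleGraph V) (hV : Fintype.card V ≤ n) (q : ℝ)
    (hq0 : 0 < q) (hq1 : q ≤ 1) (hH : Closed n H q) (b D : ℕ) (hb : 1 ≤ b)
    (hpar : Real.exp (-(b : ℝ)) ≤ (n : ℝ) ^ b * q ^ D) (Λ : ℝ) (hΛ1 : 1 ≤ Λ)
    (hΛ : Real.log n ≤ Λ) (hD : (D : ℝ) ≤ 5 / 2 * Λ) (O : V → V → Prop) (hO : IsOrient H b D O)
    (F : SimpleGraph W) (π : W → W → Prop) (hπ : ∀ u w, π u w → F.Adj u w) :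
    ∀ (k : ℕ) (X : Finset W), (Xᶜ).card = k → (∀ x ∈ X, ∀ w, π x w → w ∈ X) → ∀ f0 : W → V,
    ((((Emb F H O π).filter (fun f => ∀ x ∈ X, f x = f0 x)).card : ℕ) : ℝ)
      ≤ (n : ℝ) ^ (Xᶜ).card * (100 * Λ * q) ^ (outE F X).card := by
  intro k
  induction k using Nat.strong_induction_on with
  | _ k ih =>
    intro X hk hX f0
    have hB : 0 < 100 * Λ * q := by positivity
    have hn0 : (0 : ℝ) < n := by exact_mod_cast hn
    by_cases hXu : X = univ
    · subst hXu
      have h1 : ((Emb F H O π).filter (fun f => ∀ x ∈ (univ : Finset W), f x = f0 x)).card ≤ 1 := by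
        apply Finset.card_le_one.mpr
        intro a ha b hb
        simp only [Finset.mem_filter, Finset.mem_univ, true_implies] at ha hb
        funext x
        rw [ha.2 x, hb.2 x]
      have h2 : outE F (univ : Finset W) = ∅ := by
        simp [outE]
      rw [h2]
      simp only [Finset.compl_univ, Finset.card_empty, pow_zero, mul_one]
      exact_mod_cast h1
    · obtain ⟨Y, hY, hXY, hclosed, hconn⟩ := exists_sink π X hX hXu
      have hXnot : ∀ x ∈ X, ∀ y ∈ Y, ¬ π x y := by
        intro x hx y hy hxy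
        exact (Finset.disjoint_left.mp hXY (hX x hx y hxy)) hy
      have hstep := step n hn H hV q hq0 hq1 hH b D hb hpar Λ hΛ1 hΛ hD O hO F π hπ X Y hXY hY
        hXnot hconn f0
      set 𝓑 := (Emb F H O π).filter (fun f => ∀ x ∈ X, f x = f0 x) with h𝓑
      have hc := compl_card_split X Y hXY
      have he := outE_card_split F X Y hXY
      have hYpos : 0 < Y.card := Finset.card_pos.mpr hY
      -- bound for fibres, as natural-number-valued real bound
      have hfib : ∀ ρ ∈ 𝓑.image (res Y),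
          (((𝓑.filter (fun f => res Y f = ρ)).card : ℕ) : ℝ)
            ≤ (n : ℝ) ^ ((X ∪ Y)ᶜ).card * (100 * Λ * q) ^ (outE F (X ∪ Y)).card := by
        intro ρ hρ
        obtain ⟨f1, hf1, hf1ρ⟩ := Finset.mem_image.mp hρ
        have hsub : 𝓑.filter (fun f => res Y f = ρ) ⊆
            (Emb F H O π).filter (fun f => ∀ x ∈ X ∪ Y, f x = f1 x) := by
          intro f hf
          simp only [h𝓑, Finset.mem_filter] at hf hf1 ⊢
          refine ⟨hf.1.1, ?_⟩
          intro x hx
          rcases Finset.mem_union.mp hx with hx | hx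
          · rw [hf.1.2 x hx, hf1.2 x hx]
          · have := congrFun (hf.2.trans hf1ρ.symm) ⟨x, hx⟩
            simpa [res] using this
        calc (((𝓑.filter (fun f => res Y f = ρ)).card : ℕ) : ℝ)
            ≤ (((Emb F H O π).filter (fun f => ∀ x ∈ X ∪ Y, f x = f1 x)).card : ℕ) := by
              exact_mod_cast Finset.card_le_card hsub
          _ ≤ _ := ih _ (by omega) (X ∪ Y) rfl hclosed f1
      have hsum : 𝓑.card = ∑ ρ ∈ 𝓑.image (res Y), (𝓑.filter (fun f => res Y f = ρ)).card :=
        Finset.card_eq_sum_card_image (res Y) 𝓑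
      calc ((𝓑.card : ℕ) : ℝ)
          = ∑ ρ ∈ 𝓑.image (res Y), (((𝓑.filter (fun f => res Y f = ρ)).card : ℕ) : ℝ) := by
            rw [hsum]; push_cast; rfl
        _ ≤ ∑ ρ ∈ 𝓑.image (res Y),
              (n : ℝ) ^ ((X ∪ Y)ᶜ).card * (100 * Λ * q) ^ (outE F (X ∪ Y)).card :=
            Finset.sum_le_sum hfib
        _ = ((𝓑.image (res Y)).card : ℝ) *
              ((n : ℝ) ^ ((X ∪ Y)ᶜ).card * (100 * Λ * q) ^ (outE F (X ∪ Y)).card) := by
            rw [Finset.sum_const, nsmul_eq_mul]
        _ ≤ ((n : ℝ) ^ Y.card * (100 * Λ * q) ^ (newE F X Y).card) *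
              ((n : ℝ) ^ ((X ∪ Y)ᶜ).card * (100 * Λ * q) ^ (outE F (X ∪ Y)).card) := by
            apply mul_le_mul_of_nonneg_right hstep (by positivity)
        _ = (n : ℝ) ^ (Xᶜ).card * (100 * Λ * q) ^ (outE F X).card := by
            rw [hc, he, pow_add, pow_add]; ring

theorem count_pattern (n : ℕ) (hn : 1 ≤ n) (H : SimpleGraph V) (hV : Fintype.card V ≤ n) (q : ℝ)
    (hq0 : 0 < q) (hq1 : q ≤ 1) (hH : Closed n H q) (b D : ℕ) (hb : 1 ≤ b)
    (hpar : Real.exp (-(b : ℝ)) ≤ (n : ℝ) ^ b * q ^ D) (Λ : ℝ) (hΛ1 : 1 ≤ Λ)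
    (hΛ : Real.log n ≤ Λ) (hD : (D : ℝ) ≤ 5 / 2 * Λ) (O : V → V → Prop) (hO : IsOrient H b D O)
    (F : SimpleGraph W) (π : W → W → Prop) (hπ : ∀ u w, π u w → F.Adj u w) :
    ((Emb F H O π).card : ℝ)
      ≤ (n : ℝ) ^ Fintype.card W * (100 * Λ * q) ^ F.edgeFinset.card := by
  have hB : 0 < 100 * Λ * q := by positivity
  rcases (Emb F H O π).eq_empty_or_nonempty with hE | ⟨f0, _⟩
  · rw [hE]
    simp only [Finset.card_empty, Nat.cast_zero]
    positivity
  · have h := count_pattern_aux n hn H hV q hq0 hq1 hH b D hb hpar Λ hΛ1 hΛ hD O hO F π hπ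
      _ ∅ rfl (by simp) f0
    have h1 : (Emb F H O π).filter (fun f => ∀ x ∈ (∅ : Finset W), f x = f0 x) = Emb F H O π := by
      apply Finset.filter_true_of_mem
      intro f _ x hx
      simp at hx
    have h2 : outE F (∅ : Finset W) = F.edgeFinset := by
      apply Finset.filter_true_of_mem
      intro e _ hall
      induction e using Sym2.ind with
      | _ a c =>
        have := hall a (Sym2.mem_mk_left a c)
        simp at this
    rw [h1, h2] at h
    simpa [Finset.card_univ] using h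

end Vale.Agent.Lib.P064.Orient
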