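import Vale.Agent.Lib.P064.Orient.Defs

/-!
P064 Orient, module O7 (the expected number of extensions is at least `e^{-|Y|}`).
FROZEN STATEMENT `mu_lower`.

ROUTE.  `S = (newE F X Y).image (Sym2.map f)`, `Z = Y.image f`; `S ⊆ H.edgeFinset`,
`S.card = (newE F X Y).card`, `Z.card = Y.card` (`f` injective).  Hypothesis of `hO.load`: if
`s(a,c) ∈ S` then `s(a,c) = s(f u, f w)` with `s(u,w) ∈ newE F X Y`, w.l.o.g. `a = f u`, `c = f w`;
if `u ∈ Y` then `a ∈ Z`; otherwise `u ∈ X`, hence `w ∈ Y`, `¬ π u w` by `hX`, so `¬ O (f u) (f w)`.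
So `b m ≤ D y`.  Then `(n^y q^m)^b = n^{by} q^{bm} ≥ n^{by} q^{Dy} = (n^b q^D)^y ≥ (e^{-b})^y
= (e^{-y})^b`, and take `b`-th roots (`le_of_pow_le_pow_left₀`).
-/

open Finset SimpleGraph
open scoped Classical

namespace Vale.Agent.Lib.P064.Orient

variable {V W : Type*} [Fintype V] [Fintype W]

theorem mu_lower (n : ℕ) (q : ℝ) (hq0 : 0 < q) (hq1 : q ≤ 1) (b D : ℕ) (hb : 1 ≤ b)
    (hpar : Real.exp (-(b : ℝ)) ≤ (n : ℝ) ^ b * q ^ D)
    (H : SimpleGraph V) (O : V → V → Prop) (hO : IsOrient H b D O)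
    (F : SimpleGraph W) (π : W → W → Prop) (X Y : Finset W) (hXY : Disjoint X Y)
    (hX : ∀ x ∈ X, ∀ y ∈ Y, ¬ π x y) (f : W → V) (hf : f ∈ Emb F H O π) :
    Real.exp (-(Y.card : ℝ)) ≤ (n : ℝ) ^ Y.card * q ^ (newE F X Y).card := by
  simp only [Emb, Finset.mem_filter, Finset.mem_univ, true_and] at hf
  obtain ⟨hinj, hadj, hpat⟩ := hf
  set S : Finset (Sym2 V) := (newE F X Y).image (Sym2.map f) with hS
  set Z : Finset V := Y.image f with hZ
  have hnew : ∀ u w, s(u, w) ∈ newE F X Y →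
      F.Adj u w ∧ (u ∈ X ∪ Y) ∧ (w ∈ X ∪ Y) ∧ (u ∈ Y ∨ w ∈ Y) := by
    intro u w h
    simp only [newE, Finset.mem_filter, SimpleGraph.mem_edgeFinset, SimpleGraph.mem_edgeSet,
      Sym2.mem_iff, forall_eq_or_imp, forall_eq, exists_eq_or_imp, exists_eq_left] at h
    exact ⟨h.1, h.2.1.1, h.2.1.2, h.2.2⟩
  have hSsub : S ⊆ H.edgeFinset := by
    intro e he
    rw [hS, Finset.mem_image] at he
    obtain ⟨e', he', rfl⟩ := he
    induction e' using Sym2.ind with
    | _ u w =>
      rw [Sym2.map_mk, SimpleGraph.mem_edgeFinset, SimpleGraph.mem_edgeSet]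
      exact hadj u w (hnew u w he').1
  have hScard : S.card = (newE F X Y).card :=
    Finset.card_image_of_injective _ (Sym2.map.injective hinj)
  have hZcard : Z.card = Y.card := Finset.card_image_of_injective _ hinj
  have hkey : ∀ u w, s(u, w) ∈ newE F X Y → f u ∈ Z ∨ ¬ O (f u) (f w) := by
    intro u w h
    obtain ⟨h1, h2, _, h4⟩ := hnew u w h
    by_cases hu : u ∈ Y
    · exact Or.inl (Finset.mem_image_of_mem f hu)
    · right
      have huX : u ∈ X := by
        rcases Finset.mem_union.1 h2 with h | h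
        · exact h
        · exact absurd h hu
      have hwY : w ∈ Y := by
        rcases h4 with h | h
        · exact absurd h hu
        · exact h
      rw [hpat u w h1]
      exact hX u huX w hwY
  have hload : b * S.card ≤ D * Z.card := by
    apply hO.load Z S hSsub
    intro a c hac
    rw [hS, Finset.mem_image] at hac
    obtain ⟨e', he', hmap⟩ := hac
    induction e' using Sym2.ind with
    | _ u w =>
      rw [Sym2.map_mk, Sym2.eq_iff] at hmap
      rcases hmap with ⟨rfl, rfl⟩ | ⟨rfl, rfl⟩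
      · exact hkey u w he'
      · exact hkey w u (by rw [Sym2.eq_swap]; exact he')
  rw [hScard, hZcard] at hload
  set y := Y.card with hy
  set m := (newE F X Y).card with hm
  have hn0 : (0 : ℝ) ≤ (n : ℝ) := Nat.cast_nonneg n
  have hrhs : 0 ≤ (n : ℝ) ^ y * q ^ m := by positivity
  apply le_of_pow_le_pow_left₀ (n := b) (by omega) hrhs
  calc Real.exp (-(y : ℝ)) ^ b = Real.exp (-(b : ℝ)) ^ y := by
        rw [← Real.exp_nat_mul, ← Real.exp_nat_mul]
        congr 1
        ring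
    _ ≤ ((n : ℝ) ^ b * q ^ D) ^ y := pow_le_pow_left₀ (Real.exp_pos _).le hpar y
    _ = (n : ℝ) ^ (b * y) * q ^ (D * y) := by
        rw [mul_pow, ← pow_mul, ← pow_mul]
    _ ≤ (n : ℝ) ^ (b * y) * q ^ (b * m) := by
        apply mul_le_mul_of_nonneg_left _ (by positivity)
        exact pow_le_pow_of_le_one hq0.le hq1 hload
    _ = ((n : ℝ) ^ y * q ^ m) ^ b := by
        rw [mul_pow, ← pow_mul, ← pow_mul, mul_comm y b, mul_comm m b]

end Vale.Agent.Lib.P064.Orient
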