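import Vale.Agent.Lib.P064.Orient.Induct

/-!
P064 Orient, module O12 (sum over the patterns).  FROZEN STATEMENT `card_copy_le_of_orient`.

ROUTE.  `darts = univ.filter (fun p : W × W => F.Adj p.1 p.2)`, of cardinality `2 e(F)`
(`SimpleGraph.dart_card_eq_twice_card_edges`, or `sum_degrees_eq_twice_card_edges`).  The map
`Copy F H → (W → V)` is injective, and the function `f` of a copy lies in
`Emb F H O (fun u w => (u,w) ∈ P)` for `P = darts.filter (fun p => O (f p.1) (f p.2))`.  So
`card (Copy F H) ≤ ∑ P ∈ darts.powerset, (Emb F H O (fun u w => (u,w) ∈ P)).card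
  ≤ 2^(2 e(F)) * n^|W| (100 Λ q)^e(F) = n^|W| (400 Λ q)^e(F)` by `count_pattern`.
-/

open Finset SimpleGraph
open scoped Classical

namespace Vale.Agent.Lib.P064.Orient

variable {V W : Type*} [Fintype V] [Fintype W]

theorem card_copy_le_of_orient (n : ℕ) (hn : 1 ≤ n) (H : SimpleGraph V)
    (hV : Fintype.card V ≤ n) (q : ℝ)
    (hq0 : 0 < q) (hq1 : q ≤ 1) (hH : Closed n H q) (b D : ℕ) (hb : 1 ≤ b)
    (hpar : Real.exp (-(b : ℝ)) ≤ (n : ℝ) ^ b * q ^ D) (Λ : ℝ) (hΛ1 : 1 ≤ Λ)
    (hΛ : Real.log n ≤ Λ) (hD : (D : ℝ) ≤ 5 / 2 * Λ) (O : V → V → Prop) (hO : IsOrient H b D O)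
    (F : SimpleGraph W) :
    (Nat.card (Copy F H) : ℝ)
      ≤ (n : ℝ) ^ Fintype.card W * (400 * Λ * q) ^ F.edgeSet.ncard := by
  set darts : Finset (W × W) := univ.filter (fun p : W × W => F.Adj p.1 p.2) with hdarts
  have hmemd : ∀ p : W × W, p ∈ darts → F.Adj p.1 p.2 := by
    intro p hp
    rw [hdarts, Finset.mem_filter] at hp
    exact hp.2
  have hdcard : darts.card = 2 * F.edgeFinset.card := by
    rw [← SimpleGraph.dart_card_eq_twice_card_edges]
    have e : F.Dart ≃ {p // p ∈ darts} :=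
      { toFun := fun d => ⟨d.toProd, by simp [hdarts, d.adj]⟩
        invFun := fun p => ⟨p.1, hmemd p.1 p.2⟩
        left_inv := fun d => rfl
        right_inv := fun p => rfl }
    rw [Fintype.card_congr e, Fintype.card_coe]
  have hencard : F.edgeSet.ncard = F.edgeFinset.card := by
    rw [← SimpleGraph.coe_edgeFinset, Set.ncard_coe_finset]
  set B : ℝ := (n : ℝ) ^ Fintype.card W * (100 * Λ * q) ^ F.edgeFinset.card with hB
  set U : Finset (W → V) :=
    darts.powerset.biUnion (fun P => Emb F H O (fun u w => (u, w) ∈ P)) with hU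
  have h1 : Nat.card (Copy F H) ≤ U.card := by
    rw [← Nat.card_eq_finsetCard U]
    let φ : Copy F H → U := fun c => ⟨fun w => c w, by
      rw [hU, Finset.mem_biUnion]
      refine ⟨darts.filter (fun p => O (c p.1) (c p.2)), ?_, ?_⟩
      · rw [Finset.mem_powerset]
        exact Finset.filter_subset _ _
      · simp only [Emb, Finset.mem_filter, Finset.mem_univ, true_and]
        refine ⟨c.injective, fun u w h => c.toHom.map_adj h, ?_⟩
        intro u w h
        simp [hdarts, h]⟩
    have hφ : Function.Injective φ := by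
      intro c c' h
      have h' : (fun w => c w) = fun w => c' w := congrArg Subtype.val h
      exact DFunLike.coe_injective h'
    exact Nat.card_le_card_of_injective φ hφ
  have h2 : (U.card : ℝ) ≤ ∑ P ∈ darts.powerset, ((Emb F H O (fun u w => (u, w) ∈ P)).card : ℝ) := by
    have := Finset.card_biUnion_le (s := darts.powerset)
      (t := fun P => Emb F H O (fun u w => (u, w) ∈ P))
    exact_mod_cast this
  have h3 : ∀ P ∈ darts.powerset, ((Emb F H O (fun u w => (u, w) ∈ P)).card : ℝ) ≤ B := by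
    intro P hP
    rw [Finset.mem_powerset] at hP
    apply count_pattern n hn H hV q hq0 hq1 hH b D hb hpar Λ hΛ1 hΛ hD O hO F
    intro u w huw
    have := hP huw
    simpa [hdarts] using this
  have h4 : ∑ P ∈ darts.powerset, ((Emb F H O (fun u w => (u, w) ∈ P)).card : ℝ)
      ≤ (2 : ℝ) ^ (2 * F.edgeFinset.card) * B := by
    refine (Finset.sum_le_card_nsmul _ _ _ h3).trans ?_
    rw [Finset.card_powerset, hdcard, nsmul_eq_mul]
    push_cast
    exact le_refl _
  calc (Nat.card (Copy F H) : ℝ) ≤ (U.card : ℝ) := by exact_mod_cast h1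
    _ ≤ _ := h2
    _ ≤ (2 : ℝ) ^ (2 * F.edgeFinset.card) * B := h4
    _ = (n : ℝ) ^ Fintype.card W * (400 * Λ * q) ^ F.edgeSet.ncard := by
        have h400 : (400 * Λ * q) ^ F.edgeFinset.card
            = ((2 : ℝ) ^ 2) ^ F.edgeFinset.card * (100 * Λ * q) ^ F.edgeFinset.card := by
          rw [← mul_pow]
          congr 1
          ring
        rw [hencard, hB, pow_mul, h400]
        ring

end Vale.Agent.Lib.P064.Orient
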