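import Mathlib

/-!
P064 Orient, module O8 (numerics of the step; pure real analysis).
FROZEN STATEMENTS `t_le_max`, `step_num`.

ROUTE.  `t_le_max`: `t^t / t! ≤ exp t` (`Real.pow_div_factorial_le_exp`), so
`(t / (e μ))^t ≤ n^r`.  If `t ≥ e² μ` then `e^t ≤ n^r`, i.e. `t ≤ r log n`.
(If `μ = 0` and `t ≥ 1` the hypothesis reads `t! ≤ 0`, impossible.)
`step_num`: case `t ≤ e² μ`: `t y² D^{y-1} ≤ μ e² y² (5/2)^{y-1} Λ^{y-1}`, with `y - 1 ≤ m`,
`y² ≤ 4^{y-1}`, `e² ≤ 7.39 ≤ 7.39^m`: constant `≤ (7.39·4·2.5)^m = 73.9^m`.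
Case `t ≤ r Λ` (then `r ≥ 1` or `t = 0`): `1 ≤ μ e^y`, `t y² D^{y-1} ≤ μ e^y r y² (5/2)^{y-1} Λ^y`,
`y ≤ m`, `y + r - 1 ≤ m`, `r ≤ 2^{r-1}`, `e^y (5/2)^{y-1} 4^{y-1} ≤ 27.2^y`: constant `≤ 27.2^m`.
-/

namespace Vale.Agent.Lib.P064.Orient

theorem t_le_max (n : ℕ) (hn : 1 ≤ n) (r t : ℕ) (μ : ℝ) (hμ : 0 ≤ μ)
    (h : (t.factorial : ℝ) ≤ (n : ℝ) ^ r * μ ^ t) :
    (t : ℝ) ≤ max (Real.exp 2 * μ) (r * Real.log n) := by
  by_cases h1 : (t : ℝ) ≤ Real.exp 2 * μ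
  · exact le_max_of_le_left h1
  · apply le_max_of_le_right
    push Not at h1
    have hn' : (1 : ℝ) ≤ n := by exact_mod_cast hn
    have ht0 : (0 : ℝ) < t := lt_of_le_of_lt (by positivity) h1
    have hfac : (t : ℝ) ^ t / t.factorial ≤ Real.exp t :=
      Real.pow_div_factorial_le_exp t ht0.le t
    have hfpos : (0 : ℝ) < t.factorial := by positivity
    have h2 : (t : ℝ) ^ t ≤ Real.exp t * t.factorial := by rwa [div_le_iff₀ hfpos] at hfac
    have h3 : μ ≤ t * Real.exp (-2) := by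
      have h30 : μ = Real.exp 2 * μ * Real.exp (-2) := by
        rw [mul_comm (Real.exp 2), mul_assoc, ← Real.exp_add]; simp
      rw [h30]
      exact mul_le_mul_of_nonneg_right h1.le (Real.exp_pos _).le
    have h4 : μ ^ t ≤ (t * Real.exp (-2)) ^ t := pow_le_pow_left₀ hμ h3 t
    have h5 : (t : ℝ) ^ t ≤ Real.exp t * ((n : ℝ) ^ r * ((t : ℝ) * Real.exp (-2)) ^ t) := by
      refine h2.trans ?_
      refine mul_le_mul_of_nonneg_left ?_ (Real.exp_pos _).le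
      refine h.trans ?_
      exact mul_le_mul_of_nonneg_left h4 (by positivity)
    rw [mul_pow] at h5
    have h6 : Real.exp (-2) ^ t = Real.exp (-(t : ℝ)) * Real.exp (-(t : ℝ)) := by
      rw [← Real.exp_nat_mul, ← Real.exp_add]; ring_nf
    have h8 : Real.exp t * Real.exp (-(t : ℝ)) = 1 := by rw [← Real.exp_add]; simp
    have hp : (0 : ℝ) < (t : ℝ) ^ t := by positivity
    have h7 : (t : ℝ) ^ t * 1 ≤ (t : ℝ) ^ t * ((n : ℝ) ^ r * Real.exp (-(t : ℝ))) := by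
      rw [h6] at h5
      calc (t : ℝ) ^ t * 1 = (t : ℝ) ^ t := mul_one _
        _ ≤ _ := h5
        _ = (t : ℝ) ^ t * ((n : ℝ) ^ r * Real.exp (-(t : ℝ))) *
              (Real.exp t * Real.exp (-(t : ℝ))) := by ring
        _ = _ := by rw [h8, mul_one]
    have h9 : (1 : ℝ) ≤ (n : ℝ) ^ r * Real.exp (-(t : ℝ)) := le_of_mul_le_mul_left h7 hp
    have h10 : Real.exp t ≤ (n : ℝ) ^ r := by
      calc Real.exp t = Real.exp t * 1 := (mul_one _).symm
        _ ≤ Real.exp t * ((n : ℝ) ^ r * Real.exp (-(t : ℝ))) :=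
            mul_le_mul_of_nonneg_left h9 (Real.exp_pos _).le
        _ = (n : ℝ) ^ r * (Real.exp t * Real.exp (-(t : ℝ))) := by ring
        _ = _ := by rw [h8, mul_one]
    have h11 : (t : ℝ) ≤ Real.log ((n : ℝ) ^ r) := by
      rw [Real.le_log_iff_exp_le (by positivity)]; exact h10
    rwa [Real.log_pow] at h11

theorem sq_le_four_pow (y : ℕ) (hy : 1 ≤ y) : (y : ℝ) ^ 2 ≤ 4 ^ (y - 1) := by
  induction y, hy using Nat.le_induction with
  | base => norm_num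
  | succ k hk ih =>
    have hk' : (1 : ℝ) ≤ k := by exact_mod_cast hk
    have e : k + 1 - 1 = (k - 1) + 1 := by omega
    rw [e, pow_succ (4 : ℝ)]
    push_cast
    nlinarith

theorem le_two_pow_pred (r : ℕ) (hr : 1 ≤ r) : (r : ℝ) ≤ 2 ^ (r - 1) := by
  induction r, hr using Nat.le_induction with
  | base => norm_num
  | succ k hk ih =>
    have hk' : (1 : ℝ) ≤ k := by exact_mod_cast hk
    have e : k + 1 - 1 = (k - 1) + 1 := by omega
    rw [e, pow_succ]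
    push_cast
    nlinarith

theorem step_num (y r m D t : ℕ) (Λ μ : ℝ) (hy : 1 ≤ y) (hm : 1 ≤ m) (hyr : (y - 1) + r ≤ m)
    (hΛ : 1 ≤ Λ) (hD : (D : ℝ) ≤ 5 / 2 * Λ) (hμ : Real.exp (-(y : ℝ)) ≤ μ)
    (ht : (t : ℝ) ≤ max (Real.exp 2 * μ) (r * Λ)) :
    (t : ℝ) * (y : ℝ) ^ 2 * (D : ℝ) ^ (y - 1) ≤ μ * (100 * Λ) ^ m := by
  have hμ0 : 0 < μ := lt_of_lt_of_le (Real.exp_pos _) hμ
  have hΛ0 : 0 < Λ := by linarith
  have hDp : (D : ℝ) ^ (y - 1) ≤ (5 / 2) ^ (y - 1) * Λ ^ (y - 1) := by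
    rw [← mul_pow]; exact pow_le_pow_left₀ (by positivity) hD _
  have hy2 := sq_le_four_pow y hy
  have he1 : Real.exp 1 ≤ 3 := by
    have := Real.exp_one_lt_d9; linarith
  have he2 : Real.exp 2 ≤ 9 := by
    have : Real.exp 2 = Real.exp 1 * Real.exp 1 := by rw [← Real.exp_add]; norm_num
    rw [this]
    have h0 := Real.exp_pos 1
    nlinarith
  -- common bound
  have hA : (y : ℝ) ^ 2 * (D : ℝ) ^ (y - 1) ≤ 10 ^ (y - 1) * Λ ^ (y - 1) := by
    calc (y : ℝ) ^ 2 * (D : ℝ) ^ (y - 1) ≤ 4 ^ (y - 1) * ((5 / 2) ^ (y - 1) * Λ ^ (y - 1)) :=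
          mul_le_mul hy2 hDp (by positivity) (by positivity)
      _ = (4 * (5 / 2)) ^ (y - 1) * Λ ^ (y - 1) := by rw [mul_pow]; ring
      _ = _ := by norm_num
  rcases le_max_iff.1 ht with h1 | h1
  · have hy1 : y - 1 ≤ m := by omega
    calc (t : ℝ) * (y : ℝ) ^ 2 * (D : ℝ) ^ (y - 1)
        = (t : ℝ) * ((y : ℝ) ^ 2 * (D : ℝ) ^ (y - 1)) := by ring
      _ ≤ (Real.exp 2 * μ) * (10 ^ (y - 1) * Λ ^ (y - 1)) :=
          mul_le_mul h1 hA (by positivity) (by positivity)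
      _ ≤ (10 ^ m * μ) * (10 ^ m * Λ ^ m) := by
          have a1 : Real.exp 2 ≤ 10 ^ m := by
            calc Real.exp 2 ≤ 10 ^ 1 := by linarith
              _ ≤ 10 ^ m := pow_le_pow_right₀ (by norm_num) hm
          have a2 : (10 : ℝ) ^ (y - 1) ≤ 10 ^ m := pow_le_pow_right₀ (by norm_num) hy1
          have a3 : Λ ^ (y - 1) ≤ Λ ^ m := pow_le_pow_right₀ hΛ hy1
          gcongr
      _ = μ * (100 * Λ) ^ m := by
          rw [mul_pow, show (100 : ℝ) = 10 * 10 by norm_num, mul_pow]; ring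
  · rcases Nat.eq_zero_or_pos r with hr | hr
    · subst hr
      have ht0 : (t : ℝ) = 0 := by
        have : (t : ℝ) ≤ 0 := by simpa using h1
        exact le_antisymm this (by positivity)
      rw [ht0]; simp; positivity
    · have hym : y ≤ m := by omega
      have hr2 := le_two_pow_pred r hr
      have hexp : 1 ≤ μ * Real.exp y := by
        have : Real.exp (-(y : ℝ)) * Real.exp y = 1 := by rw [← Real.exp_add]; simp
        rw [← this]
        exact mul_le_mul_of_nonneg_right hμ (Real.exp_pos _).le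
      have hey : Real.exp y ≤ 3 ^ y := by
        have : Real.exp y = Real.exp 1 ^ y := by rw [← Real.exp_nat_mul]; simp
        rw [this]
        exact pow_le_pow_left₀ (Real.exp_pos _).le he1 _
      have hyy : Λ * Λ ^ (y - 1) = Λ ^ y := by
        rw [← pow_succ']; congr 1; omega
      calc (t : ℝ) * (y : ℝ) ^ 2 * (D : ℝ) ^ (y - 1)
          = (t : ℝ) * ((y : ℝ) ^ 2 * (D : ℝ) ^ (y - 1)) := by ring
        _ ≤ (r * Λ) * (10 ^ (y - 1) * Λ ^ (y - 1)) :=
            mul_le_mul h1 hA (by positivity) (by positivity)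
        _ = (r * 10 ^ (y - 1)) * Λ ^ y := by rw [← hyy]; ring
        _ ≤ (2 ^ (r - 1) * 10 ^ (y - 1)) * Λ ^ m := by
            have a3 : Λ ^ y ≤ Λ ^ m := pow_le_pow_right₀ hΛ hym
            gcongr
        _ ≤ (10 ^ (r - 1) * 10 ^ (y - 1)) * Λ ^ m := by
            have : (2 : ℝ) ^ (r - 1) ≤ 10 ^ (r - 1) := pow_le_pow_left₀ (by norm_num) (by norm_num) _
            gcongr
        _ ≤ 10 ^ m * Λ ^ m := by
            rw [← pow_add]
            have : (10 : ℝ) ^ (r - 1 + (y - 1)) ≤ 10 ^ m :=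
              pow_le_pow_right₀ (by norm_num) (by omega)
            gcongr
        _ = 1 * (10 ^ m * Λ ^ m) := by ring
        _ ≤ (μ * Real.exp y) * (10 ^ m * Λ ^ m) := by gcongr
        _ ≤ (μ * 10 ^ m) * (10 ^ m * Λ ^ m) := by
            have : Real.exp y ≤ 10 ^ m := by
              calc Real.exp y ≤ 3 ^ y := hey
                _ ≤ 10 ^ y := pow_le_pow_left₀ (by norm_num) (by norm_num) _
                _ ≤ 10 ^ m := pow_le_pow_right₀ (by norm_num) hym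
            gcongr
        _ = μ * (100 * Λ) ^ m := by
            rw [mul_pow, show (100 : ℝ) = 10 * 10 by norm_num, mul_pow]; ring

end Vale.Agent.Lib.P064.Orient
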