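import Vale.Agent.Lib.P064.Orient.Sunflower
import Vale.Agent.Lib.P064.Orient.Explore
import Vale.Agent.Lib.P064.Orient.Edges
import Vale.Agent.Lib.P064.Orient.MuLower
import Vale.Agent.Lib.P064.Orient.StepNum

/-!
P064 Orient, module O9 (one step: the number of extensions to a strongly connected `Y`).
FROZEN STATEMENT `step`.

ROUTE.  `𝓑 = (Emb F H O π).filter (fun f => ∀ x ∈ X, f x = f0 x)`, `𝓡 = 𝓑.image (res Y)`,
`y = Y.card`, `m = (newE F X Y).card`, `r = (roots F X Y).card`, `μ = n^y q^m`.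
If `𝓑 = ∅` trivial.
* `m = 0`: `y = 1` by `card_newE_ge`, and `𝓡.card ≤ card (↥Y → V) = (card V)^1 ≤ n`.
* `m ≥ 1`: take `ℳ ⊆ 𝓡` maximal with pairwise disjoint ranges (finite, e.g. a subfamily of maximal
  cardinality among those with pairwise disjoint ranges), `t = ℳ.card`; choose `f_ρ ∈ 𝓑` with
  `res Y f_ρ = ρ`; enumerate `ℳ` by `Fin t` (`ℳ.equivFin`).  `sunflower` with `R = roots F X Y`
  (all `f_ρ` agree with `f0` on `X ⊇ R`, are injective and are homomorphisms) and `newE_roots` give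
  `t! ≤ n^r μ^t`; `t_le_max` gives `t ≤ max (e² μ) (r log n) ≤ max (e² μ) (r Λ)`.
  By maximality every `ρ ∈ 𝓡` has `ρ y = z` for some `y ∈ Y` and some `z` in
  `Zℳ = ℳ.biUnion (fun ρ => univ.image ρ)`, `Zℳ.card ≤ t y`.  So
  `𝓡 ⊆ Y.biUnion fun y => Zℳ.biUnion fun z => (𝓑.filter (fun f => f y = z)).image (res Y)`,
  each of cardinality `≤ D^(y-1)` by `explore` (with `hO.out`, `hconn y`, and for `f ∈ Emb`:
  `π u w → F.Adj u w → O (f u) (f w)`).  Hence `𝓡.card ≤ t y² D^(y-1)`.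
  `mu_lower` gives `e^{-y} ≤ μ`, `card_newE_ge` gives `(y-1) + r ≤ m`, and `step_num` concludes:
  `μ (100 Λ)^m = n^y (100 Λ q)^m`.
-/

open Finset SimpleGraph
open scoped Classical

namespace Vale.Agent.Lib.P064.Orient

variable {V W : Type*} [Fintype V] [Fintype W]

theorem step (n : ℕ) (hn : 1 ≤ n) (H : SimpleGraph V) (hV : Fintype.card V ≤ n) (q : ℝ)
    (hq0 : 0 < q) (hq1 : q ≤ 1) (hH : Closed n H q) (b D : ℕ) (hb : 1 ≤ b)
    (hpar : Real.exp (-(b : ℝ)) ≤ (n : ℝ) ^ b * q ^ D) (Λ : ℝ) (hΛ1 : 1 ≤ Λ)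
    (hΛ : Real.log n ≤ Λ) (hD : (D : ℝ) ≤ 5 / 2 * Λ) (O : V → V → Prop) (hO : IsOrient H b D O)
    (F : SimpleGraph W) (π : W → W → Prop) (hπ : ∀ u w, π u w → F.Adj u w)
    (X Y : Finset W) (hXY : Disjoint X Y) (hY : Y.Nonempty)
    (hX : ∀ x ∈ X, ∀ y ∈ Y, ¬ π x y) (hconn : SConn π Y) (f0 : W → V) :
    ((((Emb F H O π).filter (fun f => ∀ x ∈ X, f x = f0 x)).image (res Y)).card : ℝ)
      ≤ (n : ℝ) ^ Y.card * (100 * Λ * q) ^ (newE F X Y).card := by
  have hΛ0 : 0 < Λ := by linarith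
  set B : Finset (W → V) := (Emb F H O π).filter (fun f => ∀ x ∈ X, f x = f0 x) with hB
  set Rr : Finset (↥Y → V) := B.image (res Y) with hRr
  have hycard : 1 ≤ Y.card := Finset.card_pos.2 hY
  have hedge := card_newE_ge F π hπ X Y hXY hY hconn
  rcases B.eq_empty_or_nonempty with hBe | ⟨f1, hf1⟩
  · have : Rr = ∅ := by rw [hRr, hBe]; simp
    rw [this]
    simp only [card_empty, Nat.cast_zero]
    positivity
  have hBmem : ∀ f ∈ B, f ∈ Emb F H O π ∧ ∀ x ∈ X, f x = f0 x := by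
    intro f hf
    exact Finset.mem_filter.1 hf
  have hEmb : ∀ f ∈ B, Function.Injective f ∧ (∀ u w, F.Adj u w → H.Adj (f u) (f w)) ∧
      ∀ u w, F.Adj u w → (O (f u) (f w) ↔ π u w) := by
    intro f hf
    have := (hBmem f hf).1
    exact (Finset.mem_filter.1 this).2
  rcases Nat.eq_zero_or_pos (newE F X Y).card with hm | hm
  · -- no new edge: a single vertex
    have hy1 : Y.card = 1 := by omega
    rw [hm, hy1, pow_zero, mul_one, pow_one]
    have h1 : Rr.card ≤ Fintype.card (↥Y → V) := Finset.card_le_univ _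
    have h2 : Fintype.card (↥Y → V) = Fintype.card V := by
      rw [Fintype.card_fun, Fintype.card_coe, hy1, pow_one]
    exact_mod_cast (h1.trans (h2.le.trans hV))
  -- the maximal family
  obtain ⟨y0, hy0⟩ := hY
  let P : Finset (Finset (↥Y → V)) := Rr.powerset.filter
    (fun M => ∀ ρ ∈ M, ∀ ρ' ∈ M, ρ ≠ ρ' → ∀ a c, ρ a ≠ ρ' c)
  have hPne : P.Nonempty := ⟨∅, by simp [P]⟩
  obtain ⟨M, hMP, hMmax⟩ := Finset.exists_max_image P Finset.card hPne
  have hMsub : M ⊆ Rr := Finset.mem_powerset.1 (Finset.mem_filter.1 hMP).1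
  have hMdisj : ∀ ρ ∈ M, ∀ ρ' ∈ M, ρ ≠ ρ' → ∀ a c, ρ a ≠ ρ' c := (Finset.mem_filter.1 hMP).2
  have hmeet : ∀ ρ ∈ Rr, ∃ ρ' ∈ M, ∃ a c, ρ a = ρ' c := by
    intro ρ hρ
    by_cases hρM : ρ ∈ M
    · exact ⟨ρ, hρM, ⟨y0, hy0⟩, ⟨y0, hy0⟩, rfl⟩
    by_contra hcon
    push Not at hcon
    have hins : insert ρ M ∈ P := by
      refine Finset.mem_filter.2 ⟨Finset.mem_powerset.2 (Finset.insert_subset hρ hMsub), ?_⟩
      intro σ hσ σ' hσ' hne a c
      rcases Finset.mem_insert.1 hσ with h1 | h1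
      · rcases Finset.mem_insert.1 hσ' with h2 | h2
        · exact absurd (h1.trans h2.symm) hne
        · rw [h1]; exact hcon σ' h2 a c
      · rcases Finset.mem_insert.1 hσ' with h2 | h2
        · rw [h2]; exact fun h => hcon σ h1 c a h.symm
        · exact hMdisj σ h1 σ' h2 hne a c
    have := hMmax _ hins
    rw [Finset.card_insert_of_notMem hρM] at this
    omega
  -- representatives
  have hrep : ∀ ρ ∈ Rr, ∃ f, f ∈ B ∧ res Y f = ρ := by
    intro ρ hρ
    obtain ⟨f, hf, hfe⟩ := Finset.mem_image.1 hρ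
    exact ⟨f, hf, hfe⟩
  have : Nonempty (W → V) := ⟨f1⟩
  choose! g hgB hgres using hrep
  set t := M.card with ht
  let e : ↥M ≃ Fin t := M.equivFin
  let φ : Fin t → W → V := fun i => g (e.symm i).1
  have hφB : ∀ i, φ i ∈ B := fun i => hgB _ (hMsub (e.symm i).2)
  have hφres : ∀ i, res Y (φ i) = (e.symm i).1 := fun i => hgres _ (hMsub (e.symm i).2)
  have hrootsX : roots F X Y ⊆ X := Finset.filter_subset _ _
  have hsun := sunflower n hn H q hq0.le hq1 hH F (roots F X Y) Y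
    (Finset.disjoint_of_subset_left hrootsX hXY) ⟨y0, hy0⟩ t φ
    (fun i => (hEmb _ (hφB i)).1.injOn)
    (fun i u w huw _ _ => (hEmb _ (hφB i)).2.1 u w huw)
    (fun i j x hx => by
      rw [(hBmem _ (hφB i)).2 x (hrootsX hx), (hBmem _ (hφB j)).2 x (hrootsX hx)])
    (fun i j hij y hy y' hy' => by
      have h1 : φ i y = (e.symm i).1 ⟨y, hy⟩ := by rw [← hφres i]; rfl
      have h2 : φ j y' = (e.symm j).1 ⟨y', hy'⟩ := by rw [← hφres j]; rfl
      rw [h1, h2]
      refine hMdisj _ (e.symm i).2 _ (e.symm j).2 ?_ _ _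
      intro h
      exact hij (e.symm.injective (Subtype.ext h)))
  rw [newE_roots] at hsun
  set μ : ℝ := (n : ℝ) ^ Y.card * q ^ (newE F X Y).card with hμ
  have hμ0 : 0 ≤ μ := by positivity
  have ht1 := t_le_max n hn (roots F X Y).card t μ hμ0 hsun
  have ht2 : (t : ℝ) ≤ max (Real.exp 2 * μ) ((roots F X Y).card * Λ) :=
    ht1.trans (max_le_max le_rfl (mul_le_mul_of_nonneg_left hΛ (Nat.cast_nonneg _)))
  have hμlow := mu_lower n q hq0 hq1 b D hb hpar H O hO F π X Y hXY hX f1 (hBmem f1 hf1).1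
  have hnum := step_num Y.card (roots F X Y).card (newE F X Y).card D t Λ μ hycard hm hedge
    hΛ1 hD hμlow ht2
  -- the covering
  let Z : Finset V := M.biUnion (fun ρ => univ.image ρ)
  have hZcard : Z.card ≤ t * Y.card := by
    refine Finset.card_biUnion_le.trans ?_
    refine (Finset.sum_le_card_nsmul _ _ Y.card ?_).trans (by simp [ht])
    intro ρ _
    refine Finset.card_image_le.trans ?_
    simp
  have hcover : Rr ⊆ Y.biUnion (fun y => Z.biUnion
      (fun z => (B.filter (fun f => f y = z)).image (res Y))) := by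
    intro ρ hρ
    obtain ⟨ρ', hρ', a, c, hac⟩ := hmeet ρ hρ
    obtain ⟨f, hf, hfe⟩ := Finset.mem_image.1 hρ
    refine Finset.mem_biUnion.2 ⟨a.1, a.2, Finset.mem_biUnion.2 ⟨ρ' c, ?_, ?_⟩⟩
    · exact Finset.mem_biUnion.2 ⟨ρ', hρ', Finset.mem_image.2 ⟨c, Finset.mem_univ _, rfl⟩⟩
    · refine Finset.mem_image.2 ⟨f, Finset.mem_filter.2 ⟨hf, ?_⟩, hfe⟩
      rw [← hac, ← hfe]; rfl
  have hcard : Rr.card ≤ Y.card * ((t * Y.card) * D ^ (Y.card - 1)) := by
    refine (Finset.card_le_card hcover).trans ?_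
    refine Finset.card_biUnion_le.trans ?_
    refine (Finset.sum_le_card_nsmul _ _ ((t * Y.card) * D ^ (Y.card - 1)) ?_).trans (by simp)
    intro y hy
    refine Finset.card_biUnion_le.trans ?_
    refine (Finset.sum_le_card_nsmul _ _ (D ^ (Y.card - 1)) ?_).trans ?_
    · intro z _
      exact explore O D hO.out π Y y hy (hconn y hy) B
        (fun f hf u w huw _ _ => ((hEmb f hf).2.2 u w (hπ u w huw)).2 huw) z
    · rw [smul_eq_mul]
      exact Nat.mul_le_mul_right _ hZcard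
  calc (Rr.card : ℝ) ≤ ((Y.card * ((t * Y.card) * D ^ (Y.card - 1)) : ℕ) : ℝ) := by
        exact_mod_cast hcard
    _ = (t : ℝ) * (Y.card : ℝ) ^ 2 * (D : ℝ) ^ (Y.card - 1) := by push_cast; ring
    _ ≤ μ * (100 * Λ) ^ (newE F X Y).card := hnum
    _ = (n : ℝ) ^ Y.card * (100 * Λ * q) ^ (newE F X Y).card := by
        rw [hμ, mul_pow (100 * Λ) q]; ring

end Vale.Agent.Lib.P064.Orient
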