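import Vale.Agent.Lib.P064.Orient.Defs

/-!
P064 Orient, module O4 (sunflower packing).  FROZEN STATEMENT `sunflower`.

ROUTE (copy the structure of `mulGraph`, `factorial_le_card_aut`, `unionCopy`, `packing_factorial` in
`Vale/Agent/Lib/P064/Packing.lean`).  If `t = 0` the claim is `1 ≤ n^r`.  Otherwise let `G` be the
graph on `↥R ⊕ (Fin t × ↥Y)` with
`inr (i,y) ~ inr (j,y') ↔ i = j ∧ F.Adj y y'`, `inl x ~ inr (i,y) ↔ F.Adj x y` (and symmetrically),
`inl ≁ inl`.  The map `inl x ↦ φ 0 x`, `inr (i,y) ↦ φ i y` is a `Copy G H` (injective by `hinj`,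
`hagree`, `hdisj`).  `K = c.toSubgraph`, `G ≃g K.coe`.
* `card (↥R ⊕ Fin t × ↥Y) = r + t |Y|`;
* `t * (newE F R Y).card ≤ G.edgeSet.ncard` (in fact equality; since `q ≤ 1` the inequality is
  enough): `(i, e) ↦` the edge `e` in the `i`-th petal is injective;
* `t! ≤ Nat.card (G ≃g G)`: `σ ↦ Sum.map id (Prod.map σ id)` (uses `Y.Nonempty`);
* `copyCount ⊤ K.coe * aut = n.descFactorial (r + t|Y|) ≤ n^(r + t|Y|)`.
-/

open Finset SimpleGraph
open scoped Classical

namespace Vale.Agent.Lib.P064.Orient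

variable {V W : Type*} [Fintype V] [Fintype W]

/-- the sunflower graph: roots `R` and `t` petals, each a copy of `Y` -/
def sunGraph (F : SimpleGraph W) (R Y : Finset W) (t : ℕ) :
    SimpleGraph (↥R ⊕ (Fin t × ↥Y)) where
  Adj a c := match a, c with
    | Sum.inl _, Sum.inl _ => False
    | Sum.inl x, Sum.inr p => F.Adj x.1 p.2.1
    | Sum.inr p, Sum.inl x => F.Adj p.2.1 x.1
    | Sum.inr p, Sum.inr p' => p.1 = p'.1 ∧ F.Adj p.2.1 p'.2.1
  symm := ⟨fun a c h => by
    rcases a with x | p <;> rcases c with x' | p'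
    · exact h
    · exact F.adj_symm h
    · exact F.adj_symm h
    · exact ⟨h.1.symm, F.adj_symm h.2⟩⟩
  loopless := ⟨fun a h => by
    rcases a with x | p
    · exact h
    · exact F.loopless.irrefl _ h.2⟩

/-- the vertex map of the `i`-th petal -/
noncomputable def petal (R Y : Finset W) (t : ℕ) (y0 : ↥Y) (i : Fin t) (w : W) :
    ↥R ⊕ (Fin t × ↥Y) :=
  if h : w ∈ Y then Sum.inr (i, ⟨w, h⟩) else if h' : w ∈ R then Sum.inl ⟨w, h'⟩ else Sum.inr (i, y0)

/-- forget the petal -/
def unpetal (R Y : Finset W) (t : ℕ) : ↥R ⊕ (Fin t × ↥Y) → W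
  | Sum.inl x => x.1
  | Sum.inr p => p.2.1

omit [Fintype W] in
theorem unpetal_petal (R Y : Finset W) (t : ℕ) (y0 : ↥Y) (i : Fin t) (w : W) (hw : w ∈ R ∪ Y) :
    unpetal R Y t (petal R Y t y0 i w) = w := by
  unfold petal
  by_cases h : w ∈ Y
  · simp [h, unpetal]
  · have h' : w ∈ R := (Finset.mem_union.mp hw).resolve_right h
    simp [h, h', unpetal]

theorem sun_edges (F : SimpleGraph W) (R Y : Finset W) (hRY : Disjoint R Y) (y0 : ↥Y) (t : ℕ) :
    t * (newE F R Y).card ≤ (sunGraph F R Y t).edgeSet.ncard := by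
  rw [← coe_edgeFinset, Set.ncard_coe_finset]
  have h1 : t * (newE F R Y).card = ((univ : Finset (Fin t)) ×ˢ newE F R Y).card := by
    rw [Finset.card_product]; simp
  rw [h1]
  apply Finset.card_le_card_of_injOn (fun p => Sym2.map (petal R Y t y0 p.1) p.2)
  · rintro ⟨i, e⟩ he
    simp only [Finset.coe_product, Set.mem_prod, Finset.mem_coe, Finset.mem_univ, true_and] at he
    simp only [Finset.mem_coe, mem_edgeFinset]
    induction e using Sym2.ind with
    | _ a c =>
      simp only [newE, Finset.mem_filter, mem_edgeFinset, mem_edgeSet, Sym2.mem_iff,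
        forall_eq_or_imp, forall_eq, exists_eq_or_imp, exists_eq_left] at he
      obtain ⟨hadj, ⟨ha, hc⟩, hY⟩ := he
      simp only [Sym2.map_mk, mem_edgeSet]
      have hnot : ∀ w, w ∈ R → w ∉ Y := fun w hw => Finset.disjoint_left.mp hRY hw
      unfold petal
      by_cases haY : a ∈ Y <;> by_cases hcY : c ∈ Y
      · simp only [haY, hcY, dite_true]
        exact ⟨rfl, hadj⟩
      · have hcR : c ∈ R := (Finset.mem_union.mp hc).resolve_right hcY
        simp only [haY, hcY, hcR, dite_true, dite_false]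
        exact hadj
      · have haR : a ∈ R := (Finset.mem_union.mp ha).resolve_right haY
        simp only [haY, hcY, haR, dite_true, dite_false]
        exact hadj
      · exact absurd hY (by tauto)
  · rintro ⟨i, e⟩ he ⟨j, e'⟩ he' heq
    simp only [Finset.coe_product, Set.mem_prod, Finset.mem_coe, Finset.mem_univ, true_and]
      at he he'
    simp only at heq
    simp only [newE, Finset.mem_filter] at he he'
    have hback : ∀ (k : Fin t) (d : Sym2 W), (∀ v ∈ d, v ∈ R ∪ Y) →
        Sym2.map (unpetal R Y t) (Sym2.map (petal R Y t y0 k) d) = d := by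
      intro k d hd
      induction d using Sym2.ind with
      | _ a c =>
        simp only [Sym2.map_mk]
        rw [unpetal_petal R Y t y0 k a (hd a (Sym2.mem_mk_left a c)),
          unpetal_petal R Y t y0 k c (hd c (Sym2.mem_mk_right a c))]
    have hee : e = e' := by
      rw [← hback i e he.2.1, ← hback j e' he'.2.1, heq]
    subst hee
    obtain ⟨v, hv, hvY⟩ := he.2.2
    have hmem : petal R Y t y0 i v ∈ Sym2.map (petal R Y t y0 j) e := by
      rw [← heq]; exact Sym2.mem_map.mpr ⟨v, hv, rfl⟩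
    obtain ⟨v', hv', hvv⟩ := Sym2.mem_map.mp hmem
    have hv'RY := he.2.1 v' hv'
    have hij : j = i := by
      unfold petal at hvv
      by_cases h : v' ∈ Y
      · simp only [h, hvY, dite_true, Sum.inr.injEq, Prod.mk.injEq] at hvv
        exact hvv.1
      · have h' : v' ∈ R := (Finset.mem_union.mp hv'RY).resolve_right h
        simp [h, h', hvY] at hvv
    rw [hij]

theorem sun_aut (F : SimpleGraph W) (R Y : Finset W) (y0 : ↥Y) (t : ℕ) :
    t.factorial ≤ Nat.card (sunGraph F R Y t ≃g sunGraph F R Y t) := by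
  have hfin : Finite (sunGraph F R Y t ≃g sunGraph F R Y t) :=
    Finite.of_injective (fun e : sunGraph F R Y t ≃g sunGraph F R Y t =>
      (e : ↥R ⊕ (Fin t × ↥Y) → ↥R ⊕ (Fin t × ↥Y))) DFunLike.coe_injective
  have hc : t.factorial = Nat.card (Equiv.Perm (Fin t)) := by
    rw [Nat.card_eq_fintype_card, Fintype.card_perm, Fintype.card_fin]
  rw [hc]
  refine Nat.card_le_card_of_injective
    (fun σ : Equiv.Perm (Fin t) =>
      (⟨Equiv.sumCongr (Equiv.refl ↥R) (Equiv.prodCongr σ (Equiv.refl ↥Y)), ?_⟩ :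
      sunGraph F R Y t ≃g sunGraph F R Y t)) ?_
  · intro a c
    rcases a with x | p <;> rcases c with x' | p' <;> simp [sunGraph]
  · intro σ τ h
    ext i
    have := DFunLike.congr_fun h (Sum.inr (i, y0))
    simp only [RelIso.coe_fn_mk, Equiv.sumCongr_apply, Sum.map_inr, Equiv.prodCongr_apply,
      Prod.map_apply, Sum.inr.injEq, Prod.mk.injEq] at this
    rw [this.1]

/-- the copy of the sunflower graph in `H` -/
def sunCopy (H : SimpleGraph V) (F : SimpleGraph W) (R Y : Finset W) (hRY : Disjoint R Y)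
    (t : ℕ) (i0 : Fin t) (φ : Fin t → W → V)
    (hinj : ∀ i, Set.InjOn (φ i) (↑(R ∪ Y) : Set W))
    (hadj : ∀ i u w, F.Adj u w → u ∈ Y → w ∈ R ∪ Y → H.Adj (φ i u) (φ i w))
    (hagree : ∀ i j, ∀ x ∈ R, φ i x = φ j x)
    (hdisj : ∀ i j, i ≠ j → ∀ y ∈ Y, ∀ y' ∈ Y, φ i y ≠ φ j y') : Copy (sunGraph F R Y t) H :=
  ⟨⟨fun a => match a with
      | Sum.inl x => φ i0 x.1
      | Sum.inr p => φ p.1 p.2.1, fun {a c} h => by
    rcases a with x | p <;> rcases c with x' | p'
    · exact h.elim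
    · have h' : F.Adj x.1 p'.2.1 := h
      show H.Adj (φ i0 x.1) (φ p'.1 p'.2.1)
      rw [hagree i0 p'.1 x.1 x.2]
      exact (hadj p'.1 _ _ h'.symm p'.2.2 (Finset.mem_union_left _ x.2)).symm
    · have h' : F.Adj p.2.1 x'.1 := h
      show H.Adj (φ p.1 p.2.1) (φ i0 x'.1)
      rw [hagree i0 p.1 x'.1 x'.2]
      exact hadj p.1 _ _ h' p.2.2 (Finset.mem_union_left _ x'.2)
    · have h' : p.1 = p'.1 ∧ F.Adj p.2.1 p'.2.1 := h
      show H.Adj (φ p.1 p.2.1) (φ p'.1 p'.2.1)
      rw [← h'.1]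
      exact hadj p.1 _ _ h'.2 p.2.2 (Finset.mem_union_right _ p'.2.2)⟩, fun a c h => by
    rcases a with x | p <;> rcases c with x' | p'
    · have h' : φ i0 x.1 = φ i0 x'.1 := h
      have := hinj i0 (Finset.mem_coe.mpr (Finset.mem_union_left _ x.2))
        (Finset.mem_coe.mpr (Finset.mem_union_left _ x'.2)) h'
      exact congrArg Sum.inl (Subtype.ext this)
    · have h' : φ i0 x.1 = φ p'.1 p'.2.1 := h
      rw [hagree i0 p'.1 x.1 x.2] at h'
      have := hinj p'.1 (Finset.mem_coe.mpr (Finset.mem_union_left _ x.2))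
        (Finset.mem_coe.mpr (Finset.mem_union_right _ p'.2.2)) h'
      exact absurd p'.2.2 (this ▸ Finset.disjoint_left.mp hRY x.2)
    · have h' : φ p.1 p.2.1 = φ i0 x'.1 := h
      rw [hagree i0 p.1 x'.1 x'.2] at h'
      have := hinj p.1 (Finset.mem_coe.mpr (Finset.mem_union_right _ p.2.2))
        (Finset.mem_coe.mpr (Finset.mem_union_left _ x'.2)) h'
      exact absurd p.2.2 (this ▸ Finset.disjoint_left.mp hRY x'.2)
    · have h' : φ p.1 p.2.1 = φ p'.1 p'.2.1 := h
      have h1 : p.1 = p'.1 := by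
        by_contra hne
        exact hdisj _ _ hne _ p.2.2 _ p'.2.2 h'
      rw [← h1] at h'
      have := hinj p.1 (Finset.mem_coe.mpr (Finset.mem_union_right _ p.2.2))
        (Finset.mem_coe.mpr (Finset.mem_union_right _ p'.2.2)) h'
      exact congrArg Sum.inr (Prod.ext h1 (Subtype.ext this))⟩

theorem sunflower (n : ℕ) (hn : 1 ≤ n) (H : SimpleGraph V) (q : ℝ) (hq0 : 0 ≤ q) (hq1 : q ≤ 1)
    (hH : Closed n H q) (F : SimpleGraph W) (R Y : Finset W) (hRY : Disjoint R Y)
    (hY : Y.Nonempty) (t : ℕ) (φ : Fin t → W → V)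
    (hinj : ∀ i, Set.InjOn (φ i) (↑(R ∪ Y) : Set W))
    (hadj : ∀ i u w, F.Adj u w → u ∈ Y → w ∈ R ∪ Y → H.Adj (φ i u) (φ i w))
    (hagree : ∀ i j, ∀ x ∈ R, φ i x = φ j x)
    (hdisj : ∀ i j, i ≠ j → ∀ y ∈ Y, ∀ y' ∈ Y, φ i y ≠ φ j y') :
    (t.factorial : ℝ) ≤
      (n : ℝ) ^ R.card * ((n : ℝ) ^ Y.card * q ^ (newE F R Y).card) ^ t := by
  have hn1 : (1 : ℝ) ≤ n := by exact_mod_cast hn
  rcases Nat.eq_zero_or_pos t with h0 | hpos
  · subst h0
    simp only [Nat.factorial_zero, Nat.cast_one, pow_zero, mul_one]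
    exact one_le_pow₀ hn1
  obtain ⟨y0, hy0⟩ := hY
  set G := sunGraph F R Y t with hG
  set c := sunCopy H F R Y hRY t ⟨0, hpos⟩ φ hinj hadj hagree hdisj with hc
  set K := c.toSubgraph with hK
  have e : G ≃g K.coe := c.isoToSubgraph
  have hE : t * (newE F R Y).card ≤ K.coe.edgeSet.ncard := by
    have h1 : K.coe.edgeSet.ncard = G.edgeSet.ncard := by
      rw [← Nat.card_coe_set_eq, ← Nat.card_coe_set_eq]
      exact (Nat.card_congr e.mapEdgeSet).symm
    rw [h1]
    exact sun_edges F R Y hRY ⟨y0, hy0⟩ t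
  have hVc : Fintype.card K.verts = R.card + t * Y.card := by
    rw [← Fintype.card_congr e.toEquiv]
    simp
  have hfin : Finite (K.coe ≃g K.coe) :=
    Finite.of_injective (fun e : K.coe ≃g K.coe => (e : K.verts → K.verts))
      DFunLike.coe_injective
  have haut : t.factorial ≤ Nat.card (K.coe ≃g K.coe) := by
    refine (sun_aut F R Y ⟨y0, hy0⟩ t).trans ?_
    refine Nat.card_le_card_of_injective
      (fun σ : G ≃g G => (e.symm.trans σ).trans e) ?_
    intro σ τ h
    apply DFunLike.ext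
    intro x
    have := DFunLike.congr_fun h (e x)
    simpa using this
  have hl := labelledCopyCount_eq (⊤ : SimpleGraph (Fin n)) K.coe
  rw [labelledCopyCount_top, hVc] at hl
  have h1 := hH K
  have h2 : ((⊤ : SimpleGraph (Fin n)).copyCount K.coe : ℝ) * t.factorial
      ≤ (n : ℝ) ^ (R.card + t * Y.card) := by
    have : (⊤ : SimpleGraph (Fin n)).copyCount K.coe * t.factorial
        ≤ n ^ (R.card + t * Y.card) := by
      calc _ ≤ (⊤ : SimpleGraph (Fin n)).copyCount K.coe * Nat.card (K.coe ≃g K.coe) :=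
            Nat.mul_le_mul_left _ haut
        _ = n.descFactorial (R.card + t * Y.card) := hl.symm
        _ ≤ _ := Nat.descFactorial_le_pow _ _
    exact_mod_cast this
  have hqq : 0 ≤ q ^ K.coe.edgeSet.ncard := by positivity
  calc (t.factorial : ℝ)
      ≤ (((⊤ : SimpleGraph (Fin n)).copyCount K.coe : ℝ) * q ^ K.coe.edgeSet.ncard)
          * t.factorial := by
        exact le_mul_of_one_le_left (Nat.cast_nonneg _) h1
    _ = (((⊤ : SimpleGraph (Fin n)).copyCount K.coe : ℝ) * t.factorial)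
          * q ^ K.coe.edgeSet.ncard := by ring
    _ ≤ (n : ℝ) ^ (R.card + t * Y.card) * q ^ K.coe.edgeSet.ncard :=
        mul_le_mul_of_nonneg_right h2 hqq
    _ ≤ (n : ℝ) ^ (R.card + t * Y.card) * q ^ (t * (newE F R Y).card) := by
        apply mul_le_mul_of_nonneg_left _ (by positivity)
        exact pow_le_pow_of_le_one hq0 hq1 hE
    _ = _ := by
        rw [mul_pow, ← pow_mul, ← pow_mul, pow_add, mul_comm Y.card, mul_comm (newE F R Y).card]
        ring

end Vale.Agent.Lib.P064.Orient
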